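import Crest.Agent.LT95.Top
import Crest.Agent.LT.Special

/-! # STAR: pointwise part (row 227). -/

set_option autoImplicit false
set_option linter.unusedSectionVars false

namespace Crest.Agent.LT95

open Crest.LubinTate MvPowerSeries Crest.Agent.LT

variable {p n h r : ℕ} [Fact p.Prime]
variable {C : Type*} [NontriviallyNormedField C] [CompleteSpace C] [IsUltrametricDist C]
  [CharP C p] [IsAlgClosed C]


theorem pt_mulSeries_pow {R : Type*} [CommRing R] {G : FormalGroup R} [G.IsComm] {N : ℕ}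
    (hN : N ≠ 0) (hG : mulSeries G p = PowerSeries.X ^ N) (a : ℕ) :
    mulSeries G (p ^ a) = PowerSeries.X ^ (N ^ a) := by
  induction a with
  | zero => simp [mulSeries_one]
  | succ a ih =>
    rw [pow_succ, mulSeries_mul, ih, hG, PowerSeries.subst_pow, PowerSeries.subst_X, ← pow_mul,
      pow_succ]
    · exact PowerSeries.HasSubst.X_pow (pow_ne_zero a hN)
    · exact PowerSeries.HasSubst.X_pow (pow_ne_zero a hN)

/-- `ι(z^(q^m)) = [p^m] ι(z)` -/
theorem pt_iota_pow (D : LData p n h r C) {z : OC C} (hz : ‖z‖ < 1) (m : ℕ) :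
    D.iota (z ^ ((p ^ n) ^ m)) = ev1 (RingHom.id (OC C)) (D.iota z) (mulSeries D.Hx (p ^ m)) := by
  have := D.Hcomm
  have htn := LogC.tn (D.iota_lt hz)
  induction m with
  | zero => simp [mulSeries_one, ev1_X _ _ htn]
  | succ m ih =>
    have h1 : ‖z ^ ((p ^ n) ^ m)‖ < 1 := by
      rw [norm_pow]
      exact pow_lt_one₀ (norm_nonneg _) hz (pow_ne_zero _ (pow_ne_zero _ (Fact.out : p.Prime).ne_zero))
    rw [pow_succ, pow_mul, D.iota_pow h1, ih, pow_succ, mulSeries_mul,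
      ev1_subst _ _ htn _ (constantCoeff_mulSeries _ _)]

/-- P2b -/
theorem pt_log (D : CData p n h r C) [CharP (OC C) p] (w : OC C) (hw : ‖w‖ < 1) (j a : ℕ)
    (haj : j ≤ a) :
    ev1 (RingHom.id (OC C)) ((D.toLData.iota (w ^ ((p ^ n) ^ (a - j)))) ^ ((p ^ h) ^ j))
      (PowerSeries.map (iterateFrobenius (OC C) p (h * j)) D.toLData.Log) =
      (D.toLData.pi w) ^ ((p ^ h) ^ a) := by
  have hw' : ‖w ^ ((p ^ n) ^ (a - j))‖ < 1 := by
    rw [norm_pow]
    exact pow_lt_one₀ (norm_nonneg _) hw (pow_ne_zero _ (pow_ne_zero _ (Fact.out : p.Prime).ne_zero))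
  have htn := LogC.tn (D.toLData.iota_lt hw')
  have hzQ : ‖(D.toLData.iota (w ^ ((p ^ n) ^ (a - j)))) ^ ((p ^ h) ^ j)‖ < 1 := by
    rw [norm_pow]
    exact pow_lt_one₀ (norm_nonneg _) (D.toLData.iota_lt hw')
      (pow_ne_zero _ (pow_ne_zero _ (Fact.out : p.Prime).ne_zero))
  rw [ev1_map _ _ _ (LogC.tn hzQ)]
  have h3 := map_ev (iterateFrobenius (OC C) p (h * j)) (by
    change Continuous (fun x : OC C => x ^ (p ^ (h * j)))
    exact continuous_pow _) (RingHom.id (OC C))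
    (fun _ : Unit => D.toLData.iota (w ^ ((p ^ n) ^ (a - j)))) (fun _ => htn) D.toLData.Log
  simp only [iterateFrobenius_def] at h3
  rw [← pow_mul p h j] at *
  have h4 : (D.toLData.pi (w ^ ((p ^ n) ^ (a - j)))) ^ (p ^ (h * j)) =
      (D.toLData.pi w) ^ ((p ^ h) ^ a) := by
    have h5 : ∀ m, D.toLData.pi (w ^ ((p ^ n) ^ m)) = (D.toLData.pi w) ^ ((p ^ h) ^ m) := by
      intro m
      induction m with
      | zero => simp
      | succ m ih =>
        have h1 : ‖w ^ ((p ^ n) ^ m)‖ < 1 := by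
          rw [norm_pow]
          exact pow_lt_one₀ (norm_nonneg _) hw
            (pow_ne_zero _ (pow_ne_zero _ (Fact.out : p.Prime).ne_zero))
        rw [pow_succ, pow_mul, D.toLData.pi_pow h1, ih, pow_succ (p ^ h) m, pow_mul]
    rw [h5, pow_mul p h j, ← pow_mul, ← pow_add, Nat.sub_add_cancel haj]
  rw [← h4]
  exact h3.symm

/-- P2c -/
theorem pt_small (D : CData p n h r C) (w : OC C) (hw : ‖w‖ < 1) (m : ℕ) :
    ‖D.toLData.iota (w ^ ((p ^ n) ^ m))‖ ≤ ‖D.toLData.iota w‖ ^ ((p ^ h) ^ m) := by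
  set L := D.toLData with hL
  have hQ0 : p ^ h ≠ 0 := pow_ne_zero h (Fact.out : p.Prime).ne_zero
  induction m with
  | zero => simp
  | succ m ih =>
    have h1 : ‖w ^ ((p ^ n) ^ m)‖ < 1 := by
      rw [norm_pow]
      exact pow_lt_one₀ (norm_nonneg _) hw
        (pow_ne_zero _ (pow_ne_zero _ (Fact.out : p.Prime).ne_zero))
    rw [pow_succ, pow_mul, L.iota_pow h1]
    set z := L.iota (w ^ ((p ^ n) ^ m)) with hz
    have hz1 : ‖z‖ < 1 := L.iota_lt h1
    have htn := LogC.tn hz1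
    have hzQ : ‖z ^ (p ^ h)‖ < 1 := by
      rw [norm_pow]; exact pow_lt_one₀ (norm_nonneg _) hz1 hQ0
    have h2 : ev1 (RingHom.id (OC C)) z (mulSeries L.Hx p) =
        ev1 (RingHom.id (OC C)) (z ^ (p ^ h)) L.Wx := by
      rw [L.HW, ev1_subst _ _ htn _ (by
        rw [map_pow, PowerSeries.constantCoeff_X, zero_pow hQ0]), tor_ev1_pow _ _ htn,
        ev1_X _ _ htn]
    rw [h2, pow_succ (p ^ h) m, pow_mul]
    refine (LogC.norm_ev1_le_of_zero _ _ hzQ _ L.W0).trans ?_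
    rw [io_norm_pow]
    exact pow_le_pow_left₀ (norm_nonneg _) ih _

/-- a series with linear coefficient of norm `1` has no zeros besides `0` -/
theorem pt_inj (θ : PowerSeries (OC C)) (h0 : PowerSeries.constantCoeff θ = 0)
    (h1 : ‖PowerSeries.coeff 1 θ‖ = 1) {z : OC C} (hz : ‖z‖ < 1)
    (hθ : ev1 (RingHom.id (OC C)) z θ = 0) : z = 0 := by
  have htn := LogC.tn hz
  have h2 := OC.norm_ev1_le (RingHom.id (OC C)) z hz
    (θ - PowerSeries.C (PowerSeries.coeff 1 θ) * PowerSeries.X) (M := 1) (N := 2)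
    (fun d => OC.norm_le_one _) (by
      intro d hd
      have h3 : d = 0 ∨ d = 1 := by omega
      rcases h3 with rfl | rfl
      · rw [_root_.map_sub, PowerSeries.coeff_zero_eq_constantCoeff_apply, h0]
        simp
      · rw [_root_.map_sub, PowerSeries.coeff_C_mul, PowerSeries.coeff_one_X]
        simp)
  rw [tor_ev1_sub _ _ htn, tor_ev1_mul _ _ htn, ev1_X _ _ htn, tor_ev1_C _ _ htn, hθ, zero_sub,
    norm_neg, RingHom.id_apply, OC.norm_mul', h1, one_mul, one_mul] at h2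
  by_contra hz0
  have h3 : 0 < ‖z‖ := norm_pos_iff.2 hz0
  nlinarith

/-- P2a: `x'` is a companion point for `g = (1 + p^a δ)⁻¹`, `|x' - x| ≤ η`. Then
`W_{j,x'}(τ_i + σ_i)` is small, `τ_i = ι(t_i^(1/q^j))^(Q^j)`, `σ_i = ι(δ(t_i)^(q^(a-j)))^(Q^j)`,
sum with respect to `H_x^(Q^j)`.
Proof: `z = t_i +_Γ δ(t_i)^(q^a)`, `g(z) = t_i`; `θ(ι'(z)) = ι(g z) = ι(t_i) = 0` (`LData.iota_hom`),
`|θ_1| = 1`, so `ι'(z) = 0`. `rt_{nj}(z) = rt_{nj}(t_i) +_Γ δ(t_i)^(q^(a-j))` (`rt_unique`, `Γ` over `F_q`),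
`|ι'(rt z) - ι(rt z)| ≤ η` (`iota_close`), take `Q^j`-th powers, `W_{j,x'}(ι'(rt z)^(Q^j)) =
[p^j]_{x'} ι'(rt z) = ι'(z) = 0`, and `W_{j,x'}` is 1-Lipschitz. -/
theorem pt_companion (D : CData p n h r C)
    [CharP (MvPowerSeries (Fin r) (GaloisField p n)) p]
    (t : Fin r → OC C) (ht : D.toLData.TBasis t) (j : ℕ)
    (Wj : PowerSeries (MvPowerSeries (Fin r) (GaloisField p n)))
    (hWj0 : PowerSeries.constantCoeff Wj = 0)
    (hWj : mulSeries D.H (p ^ j) = PowerSeries.subst (PowerSeries.X ^ ((p ^ h) ^ j) :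
      PowerSeries (MvPowerSeries (Fin r) (GaloisField p n))) Wj)
    (δ : PowerSeries (GaloisField p n)) (hδ : IsFGHom D.Γ D.Γ δ) (a : ℕ) (haj : j ≤ a)
    (g : PowerSeries (GaloisField p n))
    (x' : MvPowerSeries (Fin r) (GaloisField p n) →+* OC C) (hg : IsFGHom D.Γ D.Γ g)
    (hgi : PowerSeries.subst (D.Γ.toPowerSeries.subst ![PowerSeries.X,
      PowerSeries.subst δ (mulSeries D.Γ (p ^ a))] : PowerSeries (GaloisField p n)) g =
      PowerSeries.X)
    (hx' : D.IsPoint x') (θ : PowerSeries (OC C)) {ρ : ℝ} (hρ : ρ < 1)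
    (hθ : IsFGHom (D.H.map x') (D.H.map D.x) θ)
    (hθg : ∀ i, ‖PowerSeries.coeff i θ - D.toLData.kx (PowerSeries.coeff i g)‖ ≤ ρ) {η : ℝ}
    (hη : ∀ i, ‖x' (MvPowerSeries.X i) - D.x (MvPowerSeries.X i)‖ ≤ η) (i : Fin r) :
    ‖ev1 x' (op (D.H.map (iterateFrobenius _ p (h * j))) D.x
      ((D.toLData.iota (rt p (n * j) (t i))) ^ ((p ^ h) ^ j))
      ((D.toLData.iota ((ev1 D.toLData.kx (t i) δ) ^ ((p ^ n) ^ (a - j)))) ^ ((p ^ h) ^ j))) Wj‖
      ≤ η ^ ((p ^ h) ^ j) := by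
  have hpr : p.Prime := Fact.out
  have hQ0 : (p ^ h) ^ j ≠ 0 := pow_ne_zero _ (pow_ne_zero _ hpr.ne_zero)
  have hn0 : n ≠ 0 := D.toLData.n_ne
  have := D.Γcomm
  have hchOC : CharP (OC C) p := OC.charP
  set L := D.toLData with hL
  set L' := (D.at x' hx').toLData with hL'
  have hkx : L'.kx = L.kx := by
    ext c
    exact congrArg _ (hx'.const c)
  have hti : ‖t i‖ < 1 := ht.lt i
  have hδt : ‖ev1 L.kx (t i) δ‖ < 1 := io_ev1_lt _ hti hδ.1
  set w := ev1 L.kx (t i) δ with hw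
  have hwpow : ∀ m, ‖w ^ ((p ^ n) ^ m)‖ < 1 := by
    intro m
    rw [norm_pow]
    exact pow_lt_one₀ (norm_nonneg _) hδt (pow_ne_zero _ (pow_ne_zero _ hpr.ne_zero))
  have hΓa : mulSeries D.Γ (p ^ a) = PowerSeries.X ^ ((p ^ n) ^ a) :=
    pt_mulSeries_pow (pow_ne_zero _ hpr.ne_zero) D.Γp a
  -- the point `z`
  set z := op L.Γ L.kx (t i) (w ^ ((p ^ n) ^ a)) with hz
  have hz1 : ‖z‖ < 1 := io_op_lt _ _ hti (hwpow a)
  have hδc : PowerSeries.constantCoeff (PowerSeries.subst δ (mulSeries D.Γ (p ^ a)) :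
      PowerSeries (GaloisField p n)) = 0 := (IsFGHom.comp hδ (isFGHom_mulSeries D.Γ (p ^ a))).1
  have hone : z = ev1 L.kx (t i) (D.Γ.toPowerSeries.subst ![PowerSeries.X,
      PowerSeries.subst δ (mulSeries D.Γ (p ^ a))] : PowerSeries (GaloisField p n)) := by
    have h1 := E7.ev_op D.Γ L.kx (fun _ : Unit => t i) (fun _ => io_nilp hti)
      (f := (PowerSeries.X : PowerSeries (GaloisField p n)))
      (g := (PowerSeries.subst δ (mulSeries D.Γ (p ^ a)) : PowerSeries (GaloisField p n)))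
      PowerSeries.constantCoeff_X hδc
    have h2 : ev L.kx (fun _ : Unit => t i) (PowerSeries.X : PowerSeries (GaloisField p n)) = t i :=
      ev1_X L.kx (t i) (io_nilp hti)
    have h3 : ev L.kx (fun _ : Unit => t i)
        (PowerSeries.subst δ (mulSeries D.Γ (p ^ a)) : PowerSeries (GaloisField p n)) =
          w ^ ((p ^ n) ^ a) := by
      have h4 := ev1_subst L.kx (t i) (io_nilp hti) δ hδ.1 (mulSeries D.Γ (p ^ a))
      rw [hΓa, tor_ev1_pow _ _ (io_nilp hδt), ev1_X _ _ (io_nilp hδt)] at h4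
      rw [hΓa]
      exact h4
    rw [h2, h3] at h1
    exact h1.symm
  have hone0 : PowerSeries.constantCoeff (D.Γ.toPowerSeries.subst ![PowerSeries.X,
      PowerSeries.subst δ (mulSeries D.Γ (p ^ a))] : PowerSeries (GaloisField p n)) = 0 := by
    have h1 := LT93.constantCoeff_op D.Γ (a := (PowerSeries.X : PowerSeries (GaloisField p n)))
      (b := (PowerSeries.subst δ (mulSeries D.Γ (p ^ a)) : PowerSeries (GaloisField p n)))
      PowerSeries.constantCoeff_X hδc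
    exact h1
  have hgz : ev1 L.kx z g = t i := by
    rw [hone, ← ev1_subst _ _ (io_nilp hti) _ (by
      have h1 := LT93.constantCoeff_op D.Γ (a := (PowerSeries.X : PowerSeries (GaloisField p n)))
        (b := (PowerSeries.subst δ (mulSeries D.Γ (p ^ a)) : PowerSeries (GaloisField p n)))
        PowerSeries.constantCoeff_X hδc
      exact h1), hgi, ev1_X _ _ (io_nilp hti)]
  -- `ι'(z) = 0`
  have hz' : L'.iota z = 0 := by
    have h1 := L.iota_hom L' hkx θ hθ g hg.1 hρ hθg hz1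
    rw [hgz, ht.iota i] at h1
    have hg1 : PowerSeries.coeff 1 g ≠ 0 := by
      intro h2
      have h3 := congrArg (PowerSeries.coeff 1) hgi
      rw [tor_coeff_one_subst _ _ hone0 hg.1, h2, zero_mul, PowerSeries.coeff_one_X] at h3
      exact zero_ne_one h3
    have hkg : ‖L.kx (PowerSeries.coeff 1 g)‖ = 1 := by
      have h2 : L.kx (PowerSeries.coeff 1 g) * L.kx (PowerSeries.coeff 1 g)⁻¹ = 1 := by
        rw [← map_mul, mul_inv_cancel₀ hg1, map_one]
      have h3 := congrArg norm h2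
      rw [OC.norm_mul', OC.norm_one'] at h3
      have h4 := OC.norm_le_one (L.kx (PowerSeries.coeff 1 g))
      have h5 := OC.norm_le_one (L.kx (PowerSeries.coeff 1 g)⁻¹)
      nlinarith [norm_nonneg (L.kx (PowerSeries.coeff 1 g)),
        norm_nonneg (L.kx (PowerSeries.coeff 1 g)⁻¹)]
    refine pt_inj θ hθ.1 ?_ (L'.iota_lt hz1) h1
    have h2 := hθg 1
    refine le_antisymm (OC.norm_le_one _) ?_
    by_contra h3
    push Not at h3
    have h4 : ‖L.kx (PowerSeries.coeff 1 g)‖ ≤ max ‖PowerSeries.coeff 1 θ‖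
        ‖PowerSeries.coeff 1 θ - L.kx (PowerSeries.coeff 1 g)‖ := by
      have h5 := OC.norm_sub_le_max' (PowerSeries.coeff 1 θ)
        (PowerSeries.coeff 1 θ - L.kx (PowerSeries.coeff 1 g))
      rwa [sub_sub_cancel] at h5
    rw [hkg] at h4
    exact absurd h4 (not_le.2 (max_lt h3 (h2.trans_lt hρ)))
  -- the root of `z`
  have hrt : rt p (n * j) z = op L.Γ L.kx (rt p (n * j) (t i)) (w ^ ((p ^ n) ^ (a - j))) := by
    apply rt_unique
    rw [io_op_frob L.kx hn0 j L.Γ (rt_lt _ hti) (hwpow _), rt_pow]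
    congr 1
    rw [pow_mul p n j, ← pow_mul, ← pow_add, Nat.sub_add_cancel haj]
  have hrz : ‖rt p (n * j) z‖ < 1 := rt_lt _ hz1
  have hclose : ‖L'.iota (rt p (n * j) z) - L.iota (rt p (n * j) z)‖ ≤ η :=
    D.iota_close x' hx' hη hrz
  have hLz : L.iota (rt p (n * j) z) = op L.Hx (RingHom.id (OC C)) (L.iota (rt p (n * j) (t i)))
      (L.iota (w ^ ((p ^ n) ^ (a - j)))) := by
    rw [hrt, L.iota_op (rt_lt _ hti) (hwpow _)]
  have hi1 : ‖L.iota (rt p (n * j) (t i))‖ < 1 := L.iota_lt (rt_lt _ hti)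
  have hi2 : ‖L.iota (w ^ ((p ^ n) ^ (a - j)))‖ < 1 := L.iota_lt (hwpow _)
  have hpe : (p ^ h) ^ j = p ^ (h * j) := (pow_mul p h j).symm
  have hA : op (D.H.map (iterateFrobenius _ p (h * j))) D.x
      ((L.iota (rt p (n * j) (t i))) ^ ((p ^ h) ^ j))
      ((L.iota (w ^ ((p ^ n) ^ (a - j)))) ^ ((p ^ h) ^ j)) =
      (L.iota (rt p (n * j) z)) ^ ((p ^ h) ^ j) := by
    rw [hLz, hpe]
    have h1 := map_op (iterateFrobenius (OC C) p (h * j)) (by
      change Continuous (fun x : OC C => x ^ (p ^ (h * j)))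
      exact continuous_pow _) L.Hx (RingHom.id (OC C)) (LogC.tn hi1) (LogC.tn hi2)
    simp only [iterateFrobenius_def] at h1
    rw [h1]
    have hq1 : IsTopologicallyNilpotent ((L.iota (rt p (n * j) (t i))) ^ (p ^ (h * j))) := by
      apply LogC.tn
      rw [norm_pow, ← hpe]
      exact pow_lt_one₀ (norm_nonneg _) hi1 hQ0
    have hq2 : IsTopologicallyNilpotent ((L.iota (w ^ ((p ^ n) ^ (a - j)))) ^ (p ^ (h * j))) := by
      apply LogC.tn
      rw [norm_pow, ← hpe]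
      exact pow_lt_one₀ (norm_nonneg _) hi2 hQ0
    rw [op_map _ _ _ hq1 hq2]
    have hLx : L.Hx = D.H.map D.x := rfl
    rw [hLx, op_map _ _ _ hq1 hq2]
    congr 1
    ext f
    simp only [RingHom.comp_apply, iterateFrobenius_def, map_pow, RingHom.id_apply]
  rw [hA]
  have hA1 : ‖(L.iota (rt p (n * j) z)) ^ ((p ^ h) ^ j)‖ < 1 := by
    rw [norm_pow]
    exact pow_lt_one₀ (norm_nonneg _) (L.iota_lt hrz) hQ0
  have hB1 : ‖(L'.iota (rt p (n * j) z)) ^ ((p ^ h) ^ j)‖ < 1 := by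
    rw [norm_pow]
    exact pow_lt_one₀ (norm_nonneg _) (L'.iota_lt hrz) hQ0
  have hB : ev1 x' ((L'.iota (rt p (n * j) z)) ^ ((p ^ h) ^ j)) Wj = 0 := by
    have h1 := pt_iota_pow L' hrz j
    rw [← pow_mul p n j, rt_pow, hz'] at h1
    have hcomm := D.Hcomm
    have h2 : mulSeries L'.Hx (p ^ j) = PowerSeries.map x' (mulSeries D.H (p ^ j)) :=
      mulSeries_map D.H x' (p ^ j)
    rw [h2, ev1_map _ _ _ (LogC.tn (L'.iota_lt hrz)), hWj,
      ev1_subst _ _ (LogC.tn (L'.iota_lt hrz)) _ (by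
        rw [map_pow, PowerSeries.constantCoeff_X, zero_pow hQ0]),
      tor_ev1_pow _ _ (LogC.tn (L'.iota_lt hrz)), ev1_X _ _ (LogC.tn (L'.iota_lt hrz))] at h1
    exact h1.symm
  have hη0 : 0 ≤ η := le_trans (norm_nonneg _) hclose
  have hAB : ‖(L.iota (rt p (n * j) z)) ^ ((p ^ h) ^ j) -
      (L'.iota (rt p (n * j) z)) ^ ((p ^ h) ^ j)‖ ≤ η ^ ((p ^ h) ^ j) := by
    rw [hpe, io_frob_sub p (h * j), io_norm_pow, norm_sub_rev]
    exact pow_le_pow_left₀ (norm_nonneg _) hclose _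
  have h1 := OC.norm_ev_sub_le x' (fun _ : Unit => (L.iota (rt p (n * j) z)) ^ ((p ^ h) ^ j))
    (fun _ : Unit => (L'.iota (rt p (n * j) z)) ^ ((p ^ h) ^ j)) (fun _ => hA1) (fun _ => hB1)
    (pow_nonneg hη0 _) (fun _ => hAB) Wj
  have h2 : ev x' (fun _ : Unit => (L'.iota (rt p (n * j) z)) ^ ((p ^ h) ^ j)) Wj = 0 := hB
  rw [h2, sub_zero] at h1
  exact h1

end Crest.Agent.LT95
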