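import Crest.Agent.LT95.Form
import Crest.Agent.LT95.Pt

/-! # STAR: assembly (row 227) -/

set_option autoImplicit false
set_option linter.unusedSectionVars false

namespace Crest.Agent.LT95

open Crest.LubinTate MvPowerSeries Crest.Agent.LT
open scoped MvPowerSeries.WithPiTopology

variable {p n h r : ℕ} [Fact p.Prime]
variable {C : Type*} [NontriviallyNormedField C] [CompleteSpace C] [IsUltrametricDist C]
  [CharP C p] [IsAlgClosed C]

theorem ev1_pow_arg {R : Type*} [CommRing R] (φ : R →+* OC C) (z : OC C) (hz : ‖z‖ < 1) (k : ℕ)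
    (hk : k ≠ 0) (f : PowerSeries R) :
    ev1 φ (z ^ k) f = ev1 φ z (PowerSeries.subst (PowerSeries.X ^ k : PowerSeries R) f) := by
  have ht := tn1 hz
  rw [ev1_subst _ _ ht _ (by rw [map_pow, PowerSeries.constantCoeff_X, zero_pow hk])]
  congr 1
  have h1 := ev_pow φ (fun _ : Unit => z) (fun _ => ht) (PowerSeries.X : PowerSeries R) k
  have h2 := ev1_X φ z ht
  unfold ev1 at h2 ⊢
  rw [h1, h2]

/-- `W_{m,x}(ι(y)^(Q^m)) = ι(y^(q^m))` -/
theorem ev1_Wm (D : CData p n h r C) (m : ℕ)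
    (Wm : PowerSeries (MvPowerSeries (Fin r) (GaloisField p n)))
    (hWm : mulSeries D.H (p ^ m) = PowerSeries.subst (PowerSeries.X ^ ((p ^ h) ^ m) :
      PowerSeries (MvPowerSeries (Fin r) (GaloisField p n))) Wm) {y : OC C} (hy : ‖y‖ < 1) :
    ev1 D.x ((D.toLData.iota y) ^ ((p ^ h) ^ m)) Wm = D.toLData.iota (y ^ ((p ^ n) ^ m)) := by
  have hp0 : p ≠ 0 := (Fact.out : p.Prime).ne_zero
  have hi := D.toLData.iota_lt hy
  rw [ev1_pow_arg _ _ hi _ (pow_ne_zero _ (pow_ne_zero _ hp0)), ← hWm, pt_iota_pow _ hy]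
  change _ = ev1 (RingHom.id (OC C)) _ (mulSeries (D.H.map D.x) (p ^ m))
  rw [mulSeries_map, ev1_map _ _ _ (tn1 hi)]
  rfl

theorem norm_vec_pow (y : Fin r → OC C) (k N : ℕ) :
    ‖fun i => y i ^ k‖ ^ N ≤ ‖y‖ ^ (N * k) := by
  rw [mul_comm N k, pow_mul]
  refine pow_le_pow_left₀ (norm_nonneg _) ?_ N
  rw [pi_norm_le_iff_of_nonneg (by positivity)]
  intro i
  rw [OC.norm_pow']
  exact pow_le_pow_left₀ (norm_nonneg _) (norm_le_pi_norm y i) k

/-- STAR in terms of `tay` -/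
theorem star_aux (D : CData p n h r C) (t : Fin r → OC C) (ht : D.toLData.TBasis t) (N : ℕ)
    (hJ : IsUnit (Matrix.det (Matrix.of fun i l : Fin r =>
      ((ev1 (RingHom.id (OC C)) ((D.toLData.iota (rt p n (t i))) ^ (p ^ h))
        (PowerSeries.mk fun m => MvPowerSeries.coeff (Finsupp.single l 1)
          (tay D (fun l => (X l : MvPowerSeries (Fin r) (OC C))) (fun _ => constantCoeff_X _)
            (PowerSeries.coeff m D.W))) : OC C) : C)))) :
    ∃ 𝒰 : Fin r → MvPowerSeries (Fin r) C, (∀ i, MvPowerSeries.constantCoeff (𝒰 i) = 0) ∧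
      IsUnit (Matrix.det (Matrix.of fun l i : Fin r =>
        MvPowerSeries.coeff (Finsupp.single i 1) (𝒰 l))) ∧
      ∀ δ, IsFGHom D.Γ D.Γ δ → ∀ η : ℕ → ℝ, Filter.Tendsto η Filter.atTop (nhds 0) →
        ∀ f : MvPowerSeries (Fin r) (GaloisField p n), ∃ (C0 : ℝ) (a0 : ℕ), ∀ a ≥ a0,
          ∀ (g : PowerSeries (GaloisField p n))
            (x' : MvPowerSeries (Fin r) (GaloisField p n) →+* OC C), IsFGHom D.Γ D.Γ g →
            PowerSeries.subst (D.Γ.toPowerSeries.subst ![PowerSeries.X,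
              PowerSeries.subst δ (mulSeries D.Γ (p ^ a))] : PowerSeries (GaloisField p n)) g =
              PowerSeries.X →
            D.IsPoint x' → ∀ (θ : PowerSeries (OC C)) (ρ : ℝ), ρ < 1 →
            IsFGHom (D.H.map x') (D.H.map D.x) θ →
            (∀ i, ‖PowerSeries.coeff i θ - D.toLData.kx (PowerSeries.coeff i g)‖ ≤ ρ) →
            (∀ i, ‖x' (MvPowerSeries.X i) - D.x (MvPowerSeries.X i)‖ ≤ η a) →
            ‖(x' f : C) - MvPolynomial.eval
                (fun i => (D.toLData.pi (ev1 D.toLData.kx (t i) δ) : C) ^ ((p ^ h) ^ a))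
                (truncTotal N (MvPowerSeries.subst 𝒰 (MvPowerSeries.map (OC C).subtype
                  (tay D (fun l => (X l : MvPowerSeries (Fin r) (OC C)))
                    (fun _ => constantCoeff_X _) f))))‖ ≤
              C0 * (‖fun i => D.toLData.pi (ev1 D.toLData.kx (t i) δ)‖) ^ (N * (p ^ h) ^ a) := by
  have hp1 : 1 < p := (Fact.out : p.Prime).one_lt
  have hp0 : p ≠ 0 := (Fact.out : p.Prime).ne_zero
  have hcA : CharP (MvPowerSeries (Fin r) (GaloisField p n)) p := tor_charP_mv _ _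
  have hcO : CharP (OC C) p := OC.charP
  have hn0 : n ≠ 0 := by have := D.hh; have := D.hn; omega
  have hh0 : h ≠ 0 := by have := D.hh; omega
  have hQ1 : 1 < p ^ h := Nat.one_lt_pow hh0 hp1
  -- choice of the level
  set m : ℕ := N + 1 with hm
  set j : ℕ := m + 1 with hj
  have hjM : j < (p ^ h) ^ j := Nat.lt_pow_self hQ1
  obtain ⟨Wm, hWm, hWm0, -, -, -⟩ := D.tor_Wm m
  obtain ⟨Wj, hWj, hWj0, hWj1, hWjhom, -⟩ := D.tor_Wm (m + 1)
  have hrec := Wm_rec D m Wm Wj hWm0 hWm hWj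
  have hQj0 : (p ^ h) ^ j ≠ 0 := pow_ne_zero _ (pow_ne_zero _ hp0)
  have hrt : ∀ i, ‖rt p (n * j) (t i)‖ < 1 := fun i => rt_lt _ (ht.lt i)
  set v : Fin r → OC C := fun i => D.toLData.iota (rt p (n * j) (t i)) with hv
  have hv1 : ∀ i, ‖v i‖ < 1 := fun i => D.toLData.iota_lt (hrt i)
  set τ : Fin r → OC C := fun i => v i ^ ((p ^ h) ^ j) with hτdef
  have hτ : ∀ i, ‖τ i‖ < 1 := fun i => by
    rw [hτdef]
    simp only
    rw [OC.norm_pow']
    exact pow_lt_one₀ (norm_nonneg _) (hv1 i) hQj0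
  have h0 : ∀ i, ev1 D.x (τ i) Wj = 0 := fun i => by
    rw [hτdef]
    simp only
    rw [hv]
    simp only
    rw [ev1_Wm D j Wj hWj (hrt i), ← pow_mul, rt_pow, ht.iota]
  set L : PowerSeries (OC C) :=
    PowerSeries.map (iterateFrobenius (OC C) p (h * j)) D.toLData.Log with hL
  have hL0 : PowerSeries.constantCoeff L = 0 := by
    rw [hL, ← PowerSeries.coeff_zero_eq_constantCoeff_apply, PowerSeries.coeff_map,
      PowerSeries.coeff_zero_eq_constantCoeff_apply, D.toLData.Log_spec.1, map_zero]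
  have hL1 : PowerSeries.coeff 1 L ≠ 0 := by
    rw [hL, PowerSeries.coeff_map, iterateFrobenius_def]
    exact pow_ne_zero _ D.toLData.Log_spec.2.1
  have hb : D.x (PowerSeries.coeff 1 Wj) ≠ 0 := by
    rw [hWj1, map_prod, Finset.prod_ne_zero_iff]
    intro i _
    rw [map_pow]
    refine pow_ne_zero _ ?_
    have h1 := D.Wcoord ⟨0, D.hr⟩
    simp only [pow_zero] at h1
    rw [h1]
    exact D.x0 ⟨0, D.hr⟩ rfl
  have hΦ0 : ∀ i, constantCoeff (PHI D j Wj τ L i) = 0 := by
    rintro (i | i)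
    · exact cc_FF D j Wj τ hτ h0 i
    · exact cc_GG L hL0 i
  have hlin := linM_PHI D j Wj τ hτ h0 hWjhom L
  set J : Matrix (Fin r) (Fin r) (OC C) := Matrix.of fun i l : Fin r => coeff (Finsupp.single l 1)
        (ev1 (tay D (fun l => (X l : MvPowerSeries (Fin r) (OC C)))
        (fun _ => constantCoeff_X _)) (MvPowerSeries.C (τ i)) Wj) with hJdef
  have hJ0 : J.det ≠ 0 := by
    intro hdet
    have h1 : (Matrix.of fun i l : Fin r =>
      ((ev1 (RingHom.id (OC C)) ((D.toLData.iota (rt p n (t i))) ^ (p ^ h))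
        (PowerSeries.mk fun m => MvPowerSeries.coeff (Finsupp.single l 1)
          (tay D (fun l => (X l : MvPowerSeries (Fin r) (OC C))) (fun _ => constantCoeff_X _)
            (PowerSeries.coeff m D.W))) : OC C) : C)) = (OC C).subtype.mapMatrix J := by
      refine Matrix.ext fun i l => ?_
      rw [Matrix.of_apply, RingHom.mapMatrix_apply, Matrix.map_apply, hJdef, Matrix.of_apply]
      change _ = ((_ : OC C) : C)
      congr 1
      have hy : ‖v i ^ ((p ^ h) ^ m)‖ < 1 := by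
        rw [OC.norm_pow']
        exact pow_lt_one₀ (norm_nonneg _) (hv1 i) (pow_ne_zero _ (pow_ne_zero _ hp0))
      have h2 := coeff_one_ev1_Wm D Wj Wm hWm0 hrec
        (tay D (fun l => (X l : MvPowerSeries (Fin r) (OC C))) (fun _ => constantCoeff_X _))
        (fun f => cc_tay D _ (fun _ => constantCoeff_X _) f) (v i ^ ((p ^ h) ^ m)) hy l
      have h3 : (v i ^ ((p ^ h) ^ m)) ^ (p ^ h) = τ i := by
        rw [hτdef]
        simp only
        rw [← pow_mul, ← pow_succ]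
      have h4 : ev1 D.x (v i ^ ((p ^ h) ^ m)) Wm = D.toLData.iota (rt p n (t i)) := by
        rw [hv]
        simp only
        rw [ev1_Wm D m Wm hWm (hrt i)]
        congr 1
        symm
        apply rt_unique
        rw [← pow_mul, ← pow_mul, ← pow_add]
        have : n * m + n = n * j := by rw [hj]; ring
        rw [this, rt_pow]
      rw [h3, h4] at h2
      exact h2.symm
    rw [h1, ← RingHom.map_det, hdet, map_zero] at hJ
    exact not_isUnit_zero hJ
  obtain ⟨𝒰, hU0, hU1, ε0, C0, hε0, hC0, hmain⟩ := implicit (PHI D j Wj τ L) hΦ0 J _ _ hJ0 hb hL1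
    hlin N ((p ^ h) ^ j) (by omega) (by omega)
  refine ⟨𝒰, hU0, hU1, fun δ hδ η hη f => ?_⟩
  set w : Fin r → OC C := fun i => ev1 D.toLData.kx (t i) δ with hw
  have hw1 : ∀ i, ‖w i‖ < 1 := fun i =>
    lt_of_le_of_lt (LogC.norm_ev1_le_of_zero _ _ (ht.lt i) _ hδ.1) (ht.lt i)
  -- smallness of the `s`
  have hsm : ∀ i, Filter.Tendsto (fun k : ℕ => ‖D.toLData.iota (w i)‖ ^ ((p ^ h) ^ k))
      Filter.atTop (nhds 0) := fun i =>
    (tendsto_pow_atTop_nhds_zero_of_lt_one (norm_nonneg _) (D.toLData.iota_lt (hw1 i))).comp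
      (tendsto_pow_atTop_atTop_of_one_lt hQ1)
  have hev1 : ∀ᶠ k : ℕ in Filter.atTop, ∀ i, ‖D.toLData.iota (w i)‖ ^ ((p ^ h) ^ k) < ε0 := by
    rw [Filter.eventually_all]
    exact fun i => (hsm i).eventually (gt_mem_nhds hε0)
  have hev2 : ∀ᶠ k : ℕ in Filter.atTop, η k < min ε0 1 :=
    hη.eventually (gt_mem_nhds (lt_min hε0 one_pos))
  obtain ⟨k1, hk1⟩ := Filter.eventually_atTop.mp hev1
  obtain ⟨k2, hk2⟩ := Filter.eventually_atTop.mp hev2
  refine ⟨C0, max (k1 + j) k2, fun a ha g x' hg hgi hx' θ ρ hρ hθ hθg hη' => ?_⟩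
  have haj : j ≤ a := by
    have := le_max_left (k1 + j) k2
    omega
  have hak1 : k1 ≤ a - j := by
    have := le_max_left (k1 + j) k2
    omega
  have hak2 : k2 ≤ a := (le_max_right _ _).trans ha
  set u : Fin r → OC C := fun l => x' (X l) - D.x (X l) with hu
  set s : Fin r → OC C := fun i =>
    (D.toLData.iota (w i ^ ((p ^ n) ^ (a - j)))) ^ ((p ^ h) ^ j) with hs
  have hηpos : 0 ≤ η a := (norm_nonneg _).trans (hη' ⟨0, D.hr⟩)
  have hun : ‖u‖ ≤ η a := by
    rw [pi_norm_le_iff_of_nonneg hηpos]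
    exact hη'
  have hu2 : ‖u‖ < min ε0 1 := hun.trans_lt (hk2 a hak2)
  have hwq : ∀ i, ‖w i ^ ((p ^ n) ^ (a - j))‖ < 1 := fun i => by
    rw [OC.norm_pow']
    exact pow_lt_one₀ (norm_nonneg _) (hw1 i) (pow_ne_zero _ (pow_ne_zero _ hp0))
  have hs2 : ∀ i, ‖s i‖ < ε0 := fun i => by
    have h1 := pt_small D (w i) (hw1 i) (a - j)
    have h2 := hk1 (a - j) hak1 i
    have h3 := D.toLData.iota_lt (hwq i)
    rw [hs]
    simp only
    rw [OC.norm_pow']
    exact (pow_le_of_le_one (norm_nonneg _) h3.le hQj0).trans_lt (h1.trans_lt h2)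
  have hs1 : ∀ i, ‖s i‖ < 1 := fun i => by
    have h3 := D.toLData.iota_lt (hwq i)
    rw [hs]
    simp only
    rw [OC.norm_pow']
    exact pow_lt_one₀ (norm_nonneg _) h3 hQj0
  have hsn : ‖s‖ < ε0 := by
    rw [pi_norm_lt_iff hε0]
    exact hs2
  have hu1 : ∀ i, ‖u i‖ < 1 := fun i =>
    (norm_le_pi_norm u i).trans_lt (hu2.trans_le (min_le_right _ _))
  have hux : ∀ l, x' (X l) = D.x (X l) + u l := fun l => by rw [hu]; ring
  have key := hmain (tay D (fun l => (X l : MvPowerSeries (Fin r) (OC C)))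
    (fun _ => constantCoeff_X _) f) u s
    (fun i => (D.toLData.pi (w i)) ^ ((p ^ h) ^ a)) (hu2.trans_le (min_le_left _ _)) hsn
    (fun i => by
      change ‖evi (Sum.elim u s) (FF D j Wj τ i)‖ ≤ _
      rw [evi_FF D j Wj τ hτ u s hu1 hs1 x' hx' hux i]
      exact pt_companion D t ht j Wj hWj0 hWj δ hδ a haj g x' hg hgi hx' θ hρ hθ hθg
        (fun l => norm_le_pi_norm u l) i)
    (fun i => by
      change evi (Sum.elim u s) (GG L i) = _
      rw [evi_GG L u s hu1 hs1 i]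
      exact pt_log D (w i) (hw1 i) j a haj)
  have hx'f : evi u (tay D (fun l => (X l : MvPowerSeries (Fin r) (OC C)))
      (fun _ => constantCoeff_X _) f) = x' f := by
    refine evi_tay D _ _ u hu1 x' hx' (fun l => ?_) f
    rw [hux l]
    congr 1
    exact (ev_X (RingHom.id (OC C)) _ (nilp hu1) l).symm
  rw [hx'f] at key
  refine le_trans (le_of_eq ?_) (key.trans ?_)
  · congr 3
  · exact mul_le_mul_of_nonneg_left (norm_vec_pow _ _ N) hC0

end Crest.Agent.LT95
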