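import Mathlib

/-! # Formal left inverse of a tuple of power series with identity linear part (row 227) -/

set_option autoImplicit false

namespace Crest.Agent.LT95

open MvPowerSeries Finsupp

variable {ι R : Type*} [Finite ι] [CommRing R]

/-- `Φ ≡ X` modulo degree `2` -/
def IsNear (Φ : ι → MvPowerSeries ι R) : Prop :=
  (∀ i, constantCoeff (Φ i) = 0) ∧
    ∀ i (l : ι), coeff (Finsupp.single l 1) (Φ i) = coeff (Finsupp.single l 1) (X i : MvPowerSeries ι R)

theorem degree_le_one_cases {d : ι →₀ ℕ} (h : d.degree ≤ 1) :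
    d = 0 ∨ ∃ l, d = Finsupp.single l 1 := by
  rcases Nat.lt_or_ge d.degree 1 with h1 | h1
  · left
    exact (Finsupp.degree_eq_zero_iff d).mp (by omega)
  · right
    have h2 : d.degree = 1 := le_antisymm h h1
    have h3 : d ∈ Set.range (fun a : ι ↦ Finsupp.single a 1) := by
      rw [Finsupp.range_single_one]
      exact h2
    obtain ⟨a, ha⟩ := h3
    exact ⟨a, ha.symm⟩

theorem IsNear.pow {Φ : ι → MvPowerSeries ι R} (h : IsNear Φ) (e : ι →₀ ℕ) :
    ∀ d : ι →₀ ℕ, d.degree ≤ e.degree →
      coeff d (e.prod fun i k => (Φ i) ^ k) = coeff d (monomial e (1 : R)) := by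
  classical
  have hmul : ∀ e e' : ι →₀ ℕ,
      (∀ d : ι →₀ ℕ, d.degree ≤ e.degree →
        coeff d (e.prod fun i k => (Φ i) ^ k) = coeff d (monomial e (1 : R))) →
      (∀ d : ι →₀ ℕ, d.degree ≤ e'.degree →
        coeff d (e'.prod fun i k => (Φ i) ^ k) = coeff d (monomial e' (1 : R))) →
      (∀ d : ι →₀ ℕ, d.degree ≤ (e + e').degree →
        coeff d ((e + e').prod fun i k => (Φ i) ^ k) = coeff d (monomial (e + e') (1 : R))) := by
    intro e e' he he' d hd
    rw [Finsupp.prod_add_index' (fun i => pow_zero _) (fun i => pow_add _)]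
    have h1 : (monomial (e + e') (1 : R)) = monomial e (1 : R) * monomial e' (1 : R) := by
      rw [monomial_mul_monomial, one_mul]
    rw [h1, coeff_mul, coeff_mul]
    refine Finset.sum_congr rfl fun x hx => ?_
    rw [Finset.HasAntidiagonal.mem_antidiagonal] at hx
    have hdeg : x.1.degree + x.2.degree = d.degree := by
      rw [← hx, map_add]
    rw [map_add] at hd
    rcases Nat.lt_or_ge e.degree x.1.degree with h2 | h2
    · -- then the second degree is small
      have h3 : x.2.degree < e'.degree := by omega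
      have h4 : x.2 ≠ e' := fun h => by rw [h] at h3; exact lt_irrefl _ h3
      rw [he' x.2 h3.le, coeff_monomial, if_neg h4, mul_zero, mul_zero]
    · rw [he x.1 h2]
      rcases Nat.lt_or_ge e'.degree x.2.degree with h3 | h3
      · have h4 : x.1.degree < e.degree := by omega
        have h5 : x.1 ≠ e := fun h => by rw [h] at h4; exact lt_irrefl _ h4
        rw [coeff_monomial, if_neg h5, zero_mul, zero_mul]
      · rw [he' x.2 h3]
  have hsingle1 : ∀ i : ι, ∀ d : ι →₀ ℕ, d.degree ≤ (Finsupp.single i 1 : ι →₀ ℕ).degree →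
      coeff d ((Finsupp.single i 1 : ι →₀ ℕ).prod fun i k => (Φ i) ^ k) =
        coeff d (monomial (Finsupp.single i 1) (1 : R)) := by
    intro i d hd
    rw [Finsupp.degree_single] at hd
    rw [Finsupp.prod_single_index (h := fun i k => (Φ i) ^ k) (pow_zero _), pow_one]
    rcases degree_le_one_cases hd with rfl | ⟨l, rfl⟩
    · rw [coeff_zero_eq_constantCoeff_apply, h.1 i, coeff_monomial, if_neg]
      intro h0
      have := congrArg (fun f => f i) h0
      simp at this
    · rw [h.2 i l]
      rfl
  have hzero : ∀ d : ι →₀ ℕ, d.degree ≤ (0 : ι →₀ ℕ).degree →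
      coeff d ((0 : ι →₀ ℕ).prod fun i k => (Φ i) ^ k) = coeff d (monomial 0 (1 : R)) := by
    intro d _
    rw [Finsupp.prod_zero_index]
    rfl
  have hsingle : ∀ (i : ι) (k : ℕ), ∀ d : ι →₀ ℕ, d.degree ≤ (Finsupp.single i k : ι →₀ ℕ).degree →
      coeff d ((Finsupp.single i k : ι →₀ ℕ).prod fun i k => (Φ i) ^ k) =
        coeff d (monomial (Finsupp.single i k) (1 : R)) := by
    intro i k
    induction k with
    | zero => rw [Finsupp.single_zero]; exact hzero
    | succ k ih =>
      rw [Finsupp.single_add]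
      exact hmul _ _ ih (hsingle1 i)
  induction e using Finsupp.induction_linear with
  | zero => exact hzero
  | add f g hf hg => exact hmul f g hf hg
  | single i k => exact hsingle i k

theorem IsNear.hasSubst {Φ : ι → MvPowerSeries ι R} (h : IsNear Φ) : HasSubst Φ :=
  hasSubst_of_constantCoeff_zero h.1

/-- substitution of near-identity series does not change the leading part -/
theorem IsNear.subst_sub {Φ : ι → MvPowerSeries ι R} (h : IsNear Φ) {n : ℕ}
    {f : MvPowerSeries ι R} (hf : ∀ d : ι →₀ ℕ, d.degree < n → coeff d f = 0) (d : ι →₀ ℕ)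
    (hd : d.degree ≤ n) : coeff d (subst Φ f) = coeff d f := by
  classical
  rw [coeff_subst h.hasSubst]
  have h1 : ∀ e : ι →₀ ℕ, coeff e f • coeff d (e.prod fun s k => (Φ s) ^ k) =
      if e = d then coeff d f else 0 := by
    intro e
    rcases Nat.lt_or_ge e.degree n with h2 | h2
    · rw [hf e h2, zero_smul]
      split_ifs with h3
      · rw [← h3, hf e h2]
      · rfl
    · rw [h.pow e d (hd.trans h2), coeff_monomial]
      by_cases h3 : e = d
      · subst h3
        simp
      · rw [if_neg (fun h => h3 h.symm), if_neg h3, smul_zero]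
  rw [finsum_congr h1]
  exact finsum_eq_single _ d (fun e he => if_neg he) |>.trans (if_pos rfl)

theorem IsNear.subst_low {Φ : ι → MvPowerSeries ι R} (h : IsNear Φ) {n : ℕ}
    {f : MvPowerSeries ι R} (hf : ∀ d : ι →₀ ℕ, d.degree < n → coeff d f = 0) (d : ι →₀ ℕ)
    (hd : d.degree < n) : coeff d (subst Φ f) = 0 := by
  rw [h.subst_sub hf d hd.le, hf d hd]

/-- the successive approximations -/
noncomputable def approx (Φ : ι → MvPowerSeries ι R) (f : MvPowerSeries ι R) :
    ℕ → MvPowerSeries ι R
  | 0 => 0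
  | n + 1 => approx Φ f n + (f - subst Φ (approx Φ f n))

theorem IsNear.approx_err {Φ : ι → MvPowerSeries ι R} (h : IsNear Φ) (f : MvPowerSeries ι R)
    (n : ℕ) : ∀ d : ι →₀ ℕ, d.degree < n → coeff d (f - subst Φ (approx Φ f n)) = 0 := by
  induction n with
  | zero => intro d hd; exact absurd hd (Nat.not_lt_zero _)
  | succ n ih =>
    intro d hd
    have h1 : f - subst Φ (approx Φ f (n + 1)) =
        (f - subst Φ (approx Φ f n)) - subst Φ (f - subst Φ (approx Φ f n)) := by
      rw [approx, subst_add h.hasSubst]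
      ring
    rw [h1, map_sub, h.subst_sub ih d (by omega), sub_self]

theorem IsNear.approx_stable {Φ : ι → MvPowerSeries ι R} (h : IsNear Φ) (f : MvPowerSeries ι R)
    (d : ι →₀ ℕ) (n : ℕ) (hn : d.degree < n) :
    coeff d (approx Φ f n) = coeff d (approx Φ f (d.degree + 1)) := by
  induction n with
  | zero => exact absurd hn (Nat.not_lt_zero _)
  | succ n ih =>
    rcases Nat.lt_or_ge d.degree n with h1 | h1
    · rw [approx, map_add, h.approx_err f n d h1, add_zero, ih h1]
    · have : n = d.degree := by omega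
      rw [this]

theorem IsNear.surjective {Φ : ι → MvPowerSeries ι R} (h : IsNear Φ) (f : MvPowerSeries ι R) :
    ∃ g : MvPowerSeries ι R, subst Φ g = f := by
  set g : MvPowerSeries ι R := fun d => coeff d (approx Φ f (d.degree + 1)) with hg
  have hgc : ∀ d, coeff d g = coeff d (approx Φ f (d.degree + 1)) := fun d => rfl
  refine ⟨g, ?_⟩
  ext d
  set n := d.degree + 1 with hn
  have h1 : ∀ e : ι →₀ ℕ, e.degree < n → coeff e (g - approx Φ f n) = 0 := by
    intro e he
    rw [map_sub, hgc, h.approx_stable f e n he, sub_self]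
  have h2 := h.subst_low h1 d (by omega)
  have h3 := h.approx_err f n d (by omega)
  have h4 : g = (g - approx Φ f n) + approx Φ f n := by ring
  rw [h4, subst_add h.hasSubst, map_add, h2, zero_add]
  rw [map_sub, sub_eq_zero] at h3
  exact h3.symm

/-- formal left inverse -/
theorem IsNear.exists_inv {Φ : ι → MvPowerSeries ι R} (h : IsNear Φ) :
    ∃ Ψ : ι → MvPowerSeries ι R, IsNear Ψ ∧ ∀ i, subst Φ (Ψ i) = X i := by
  choose Ψ hΨ using fun i => h.surjective (X i : MvPowerSeries ι R)
  have h0 : ∀ i, constantCoeff (Ψ i) = 0 := by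
    intro i
    have h1 := h.subst_sub (n := 0) (f := Ψ i) (fun d hd => absurd hd (Nat.not_lt_zero _)) 0
      (by simp)
    rw [hΨ, coeff_zero_eq_constantCoeff_apply, coeff_zero_eq_constantCoeff_apply,
      constantCoeff_X] at h1
    exact h1.symm
  refine ⟨Ψ, ⟨h0, fun i l => ?_⟩, hΨ⟩
  have h1 := h.subst_sub (n := 1) (f := Ψ i) (fun d hd => by
    have : d = 0 := (Finsupp.degree_eq_zero_iff d).mp (by omega)
    rw [this, coeff_zero_eq_constantCoeff_apply, h0]) (Finsupp.single l 1)
    (by rw [Finsupp.degree_single])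
  rw [hΨ] at h1
  exact h1.symm

end Crest.Agent.LT95
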