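import Crest.Agent.LT.Eval
import Crest.Agent.LT95.Inv

/-! # Effective implicit function theorem over the unit ball (row 227) -/

set_option autoImplicit false
set_option linter.unusedSectionVars false

namespace Crest.Agent.LT95

open MvPowerSeries Finsupp Crest.Agent.LT

section evalgebra

variable {σ : Type*} {R : Type*} [CommRing R]
variable {S : Type*} [CommRing S] [UniformSpace S]
variable [IsUniformAddGroup S] [IsTopologicalRing S] [IsLinearTopology S S] [T2Space S]
  [CompleteSpace S] [Finite σ]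

theorem ev_add (φ : R →+* S) (a : σ → S) (ha : ∀ i, IsTopologicallyNilpotent (a i))
    (f g : MvPowerSeries σ R) : ev φ a (f + g) = ev φ a f + ev φ a g := by
  rw [← evHom_apply φ a ha, ← evHom_apply φ a ha, ← evHom_apply φ a ha, map_add]

theorem ev_sub (φ : R →+* S) (a : σ → S) (ha : ∀ i, IsTopologicallyNilpotent (a i))
    (f g : MvPowerSeries σ R) : ev φ a (f - g) = ev φ a f - ev φ a g := by
  rw [← evHom_apply φ a ha, ← evHom_apply φ a ha, ← evHom_apply φ a ha, map_sub]

theorem ev_mul (φ : R →+* S) (a : σ → S) (ha : ∀ i, IsTopologicallyNilpotent (a i))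
    (f g : MvPowerSeries σ R) : ev φ a (f * g) = ev φ a f * ev φ a g := by
  rw [← evHom_apply φ a ha, ← evHom_apply φ a ha, ← evHom_apply φ a ha, map_mul]

theorem ev_pow (φ : R →+* S) (a : σ → S) (ha : ∀ i, IsTopologicallyNilpotent (a i))
    (f : MvPowerSeries σ R) (k : ℕ) : ev φ a (f ^ k) = ev φ a f ^ k := by
  rw [← evHom_apply φ a ha, ← evHom_apply φ a ha, map_pow]

theorem ev_zero (φ : R →+* S) (a : σ → S) (ha : ∀ i, IsTopologicallyNilpotent (a i)) :
    ev φ a (0 : MvPowerSeries σ R) = 0 := by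
  rw [← evHom_apply φ a ha, map_zero]

theorem ev_sum (φ : R →+* S) (a : σ → S) (ha : ∀ i, IsTopologicallyNilpotent (a i))
    {ι : Type*} (s : Finset ι) (f : ι → MvPowerSeries σ R) :
    ev φ a (∑ i ∈ s, f i) = ∑ i ∈ s, ev φ a (f i) := by
  rw [← evHom_apply φ a ha, map_sum]
  exact Finset.sum_congr rfl fun i _ => evHom_apply φ a ha _

theorem ev_coe (φ : R →+* S) (a : σ → S) (f : MvPolynomial σ R) :
    ev φ a (f : MvPowerSeries σ R) = f.eval₂ φ a := by
  unfold ev
  let _ : UniformSpace R := ⊥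
  exact MvPowerSeries.eval₂_coe φ a f

end evalgebra

variable {C : Type*} [NormedField C] [IsUltrametricDist C] [CompleteSpace C]

/-- identity evaluation -/
noncomputable abbrev evi {ι : Type*} (z : ι → OC C) (f : MvPowerSeries ι (OC C)) : OC C :=
  ev (RingHom.id (OC C)) z f

theorem nilp {ι : Type*} {z : ι → OC C} (hz : ∀ i, ‖z i‖ < 1) :
    ∀ i, IsTopologicallyNilpotent (z i) :=
  fun i => (OC.isTopologicallyNilpotent_iff (z i)).mpr (hz i)

theorem norm_evi_le {ι : Type*} [Fintype ι] {z : ι → OC C} {ρ : ℝ} (hρ : ρ < 1) (hz : ∀ i, ‖z i‖ ≤ ρ)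
    (hρ0 : 0 ≤ ρ) (f : MvPowerSeries ι (OC C)) (N : ℕ)
    (hN : ∀ d : ι →₀ ℕ, d.degree < N → coeff d f = 0) : ‖evi z f‖ ≤ ρ ^ N := by
  have := OC.norm_ev_le (RingHom.id (OC C)) z hρ0 hρ hz f (M := 1) (N := N)
    (fun d => OC.norm_le_one _) hN
  rwa [one_mul] at this

theorem norm_evi_le_one {ι : Type*} [Fintype ι] {z : ι → OC C} {ρ : ℝ} (hρ : ρ < 1)
    (hz : ∀ i, ‖z i‖ ≤ ρ)
    (hρ0 : 0 ≤ ρ) (f : MvPowerSeries ι (OC C)) (hf : constantCoeff f = 0) : ‖evi z f‖ ≤ ρ := by
  have := norm_evi_le hρ hz hρ0 f 1 (fun d hd => by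
    have : d = 0 := (Finsupp.degree_eq_zero_iff d).mp (by omega)
    rw [this, coeff_zero_eq_constantCoeff_apply, hf])
  rwa [pow_one] at this

theorem evi_rescale {ι : Type*} [Fintype ι] {z : ι → OC C} (hz : ∀ i, ‖z i‖ < 1) (κ : OC C)
    (f : MvPowerSeries ι (OC C)) :
    evi z (rescale (fun _ => κ) f) = evi (fun i => κ * z i) f := by
  rw [rescale_eq_subst]
  unfold evi
  rw [ev_subst (RingHom.id (OC C)) z (nilp hz)]
  · congr 1
    funext i
    have : ((fun _ : ι => κ) • (X : ι → MvPowerSeries ι (OC C))) i =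
        MvPowerSeries.C κ * X i := by
      change κ • X i = _
      rw [MvPowerSeries.smul_eq_C_mul]
    rw [this, ev_mul _ _ (nilp hz), ev_C _ _ (nilp hz), ev_X _ _ (nilp hz)]
    rfl
  · intro i
    have : ((fun _ : ι => κ) • (X : ι → MvPowerSeries ι (OC C))) i =
        MvPowerSeries.C κ * X i := by
      change κ • X i = _
      rw [MvPowerSeries.smul_eq_C_mul]
    rw [this, map_mul, constantCoeff_X, mul_zero]

section
variable {ι : Type*} [Fintype ι] [DecidableEq ι] (Φ : ι → MvPowerSeries ι (OC C))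

/-- linear part -/
noncomputable def linM : Matrix ι ι (OC C) := Matrix.of fun i l => coeff (Finsupp.single l 1) (Φ i)

/-- the normalised map -/
noncomputable def nrm (i : ι) : MvPowerSeries ι (OC C) := fun d =>
  if d.degree ≤ 1 then coeff d (X i : MvPowerSeries ι (OC C)) else
    (linM Φ).det ^ (d.degree - 2) * ∑ l, (linM Φ).adjugate i l * coeff d (Φ l)

theorem coeff_nrm (i : ι) (d : ι →₀ ℕ) : coeff d (nrm Φ i) =
    if d.degree ≤ 1 then coeff d (X i : MvPowerSeries ι (OC C)) else
    (linM Φ).det ^ (d.degree - 2) * ∑ l, (linM Φ).adjugate i l * coeff d (Φ l) := rfl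

theorem nrm_near : IsNear (nrm Φ) := by
  constructor
  · intro i
    rw [← coeff_zero_eq_constantCoeff_apply, coeff_nrm, if_pos (by simp),
      coeff_zero_eq_constantCoeff_apply, constantCoeff_X]
  · intro i l
    rw [coeff_nrm, if_pos (by rw [Finsupp.degree_single])]

theorem nrm_eq (h0 : ∀ i, constantCoeff (Φ i) = 0) (i : ι) :
    MvPowerSeries.C ((linM Φ).det ^ 2) * nrm Φ i =
      ∑ l, MvPowerSeries.C ((linM Φ).adjugate i l) * rescale (fun _ => (linM Φ).det) (Φ l) := by
  have hadj : ∀ m, ∑ l, (linM Φ).adjugate i l * coeff (Finsupp.single m 1) (Φ l) =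
      if i = m then (linM Φ).det else 0 := by
    intro m
    have h1 := congrFun (congrFun (Matrix.adjugate_mul (linM Φ)) i) m
    rw [Matrix.mul_apply] at h1
    have h2 : ∑ l, (linM Φ).adjugate i l * coeff (Finsupp.single m 1) (Φ l) =
        ∑ l, (linM Φ).adjugate i l * (linM Φ) l m := rfl
    rw [h2, h1, Matrix.smul_apply, Matrix.one_apply, smul_eq_mul]
    split_ifs <;> simp
  have hprod : ∀ d : ι →₀ ℕ, (d.prod fun _ m => (linM Φ).det ^ m) = (linM Φ).det ^ d.degree := by
    intro d
    rw [Finsupp.prod, Finset.prod_pow_eq_pow_sum]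
    rfl
  refine MvPowerSeries.ext fun d => ?_
  rw [coeff_C_mul, map_sum, coeff_nrm]
  simp only [coeff_C_mul, coeff_rescale, hprod]
  rcases Nat.lt_or_ge 1 d.degree with h | h
  · rw [if_neg (by omega), ← mul_assoc, ← pow_add]
    have h2 : 2 + (d.degree - 2) = d.degree := by omega
    rw [h2, Finset.mul_sum]
    exact Finset.sum_congr rfl fun l _ => mul_left_comm (_ : OC C) _ _
  · rw [if_pos h]
    rcases degree_le_one_cases h with rfl | ⟨m, rfl⟩
    · simp only [coeff_zero_eq_constantCoeff_apply, constantCoeff_X, h0, mul_zero,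
        Finset.sum_const_zero]
    · rw [Finsupp.degree_single, pow_one]
      have h3 : ∑ l, (linM Φ).adjugate i l * ((linM Φ).det * coeff (Finsupp.single m 1) (Φ l)) =
          (linM Φ).det * (if i = m then (linM Φ).det else 0) := by
        rw [← hadj m, Finset.mul_sum]
        exact Finset.sum_congr rfl fun l _ => mul_left_comm _ _ _
      rw [h3, coeff_X]
      have h4 : (Finsupp.single m 1 = (Finsupp.single i 1 : ι →₀ ℕ)) ↔ i = m := by
        constructor
        · intro h
          exact (Finsupp.single_left_injective one_ne_zero h).symm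
        · rintro rfl; rfl
      by_cases h5 : i = m
      · rw [if_pos (h4.mpr h5), if_pos h5]; ring
      · rw [if_neg (fun h => h5 (h4.mp h)), if_neg h5]; ring

theorem nrm_ev (h0 : ∀ i, constantCoeff (Φ i) = 0) {z : ι → OC C} (hz : ∀ i, ‖z i‖ < 1) (i : ι) :
    (linM Φ).det ^ 2 * evi z (nrm Φ i) =
      ∑ l, (linM Φ).adjugate i l * evi (fun i => (linM Φ).det * z i) (Φ l) := by
  have h1 := congrArg (evi z) (nrm_eq Φ h0 i)
  unfold evi at h1 ⊢
  rw [ev_mul _ _ (nilp hz), ev_C _ _ (nilp hz), ev_sum _ _ (nilp hz)] at h1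
  rw [RingHom.id_apply] at h1
  rw [h1]
  refine Finset.sum_congr rfl fun l _ => ?_
  rw [ev_mul _ _ (nilp hz), ev_C _ _ (nilp hz), RingHom.id_apply]
  congr 1
  exact evi_rescale hz _ _

/-- formal inverse of the normalised map -/
noncomputable def inv : ι → MvPowerSeries ι (OC C) := (nrm_near Φ).exists_inv.choose

theorem inv_near : IsNear (inv Φ) := (nrm_near Φ).exists_inv.choose_spec.1

theorem subst_inv (i : ι) : subst (nrm Φ) (inv Φ i) = X i :=
  (nrm_near Φ).exists_inv.choose_spec.2 i

theorem ev_inv {z : ι → OC C} (hz : ∀ i, ‖z i‖ < 1) (i : ι) :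
    evi (fun l => evi z (nrm Φ l)) (inv Φ i) = z i := by
  have h1 := congrArg (evi z) (subst_inv Φ i)
  unfold evi at h1 ⊢
  rw [ev_subst _ _ (nilp hz) _ (nrm_near Φ).1, ev_X _ _ (nilp hz)] at h1
  exact h1

end

/-! ### linear coefficients of a substitution -/

theorem coeff_prod_of_lt {σ τ R : Type*} [CommRing R] {a : σ → MvPowerSeries τ R}
    (ha : ∀ i, constantCoeff (a i) = 0) (e : σ →₀ ℕ) :
    ∀ d : τ →₀ ℕ, d.degree < e.degree → coeff d (e.prod fun i k => (a i) ^ k) = 0 := by
  classical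
  have hmul : ∀ e e' : σ →₀ ℕ,
      (∀ d : τ →₀ ℕ, d.degree < e.degree → coeff d (e.prod fun i k => (a i) ^ k) = 0) →
      (∀ d : τ →₀ ℕ, d.degree < e'.degree → coeff d (e'.prod fun i k => (a i) ^ k) = 0) →
      (∀ d : τ →₀ ℕ, d.degree < (e + e').degree →
        coeff d ((e + e').prod fun i k => (a i) ^ k) = 0) := by
    intro e e' he he' d hd
    rw [Finsupp.prod_add_index' (fun i => pow_zero _) (fun i => pow_add _), coeff_mul]
    refine Finset.sum_eq_zero fun x hx => ?_
    rw [Finset.HasAntidiagonal.mem_antidiagonal] at hx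
    have hdeg : x.1.degree + x.2.degree = d.degree := by rw [← hx, map_add]
    rw [map_add] at hd
    rcases Nat.lt_or_ge x.1.degree e.degree with h2 | h2
    · rw [he _ h2, zero_mul]
    · rw [he' x.2 (by omega), mul_zero]
  have hzero : ∀ d : τ →₀ ℕ, d.degree < (0 : σ →₀ ℕ).degree →
      coeff d ((0 : σ →₀ ℕ).prod fun i k => (a i) ^ k) = 0 := by
    intro d hd
    simp at hd
  have hsingle : ∀ (i : σ) (k : ℕ), ∀ d : τ →₀ ℕ, d.degree < (Finsupp.single i k : σ →₀ ℕ).degree →
      coeff d ((Finsupp.single i k : σ →₀ ℕ).prod fun i k => (a i) ^ k) = 0 := by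
    intro i k
    induction k with
    | zero => rw [Finsupp.single_zero]; exact hzero
    | succ k ih =>
      rw [Finsupp.single_add]
      refine hmul _ _ ih ?_
      intro d hd
      rw [Finsupp.degree_single] at hd
      have : d = 0 := (Finsupp.degree_eq_zero_iff d).mp (by omega)
      rw [this, Finsupp.prod_single_index (h := fun i k => (a i) ^ k) (pow_zero _), pow_one,
        coeff_zero_eq_constantCoeff_apply, ha]
  induction e using Finsupp.induction_linear with
  | zero => exact hzero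
  | add f g hf hg => exact hmul f g hf hg
  | single i k => exact hsingle i k

theorem coeff_single_subst {σ τ R : Type*} [Fintype σ] [CommRing R]
    {a : σ → MvPowerSeries τ R}
    (ha : ∀ i, constantCoeff (a i) = 0) (f : MvPowerSeries σ R) (m : τ) :
    coeff (Finsupp.single m 1) (subst a f) =
      ∑ i, coeff (Finsupp.single i 1) f * coeff (Finsupp.single m 1) (a i) := by
  classical
  rw [coeff_subst (hasSubst_of_constantCoeff_zero ha)]
  have hinj : Function.Injective (fun i : σ => (Finsupp.single i 1 : σ →₀ ℕ)) :=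
    Finsupp.single_left_injective one_ne_zero
  have h1 : ∀ e : σ →₀ ℕ, e ∉ Finset.univ.image (fun i : σ => (Finsupp.single i 1 : σ →₀ ℕ)) →
      coeff e f • coeff (Finsupp.single m 1) (e.prod fun s k => (a s) ^ k) = 0 := by
    intro e he
    rcases Nat.lt_or_ge 1 e.degree with h2 | h2
    · rw [coeff_prod_of_lt ha e _ (by rw [Finsupp.degree_single]; exact h2), smul_zero]
    · rcases degree_le_one_cases h2 with rfl | ⟨i, rfl⟩
      · rw [Finsupp.prod_zero_index, coeff_one, if_neg, smul_zero]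
        intro h0
        have := congrArg (fun f => f m) h0
        simp at this
      · exact absurd (Finset.mem_image_of_mem _ (Finset.mem_univ i)) he
  rw [finsum_eq_sum_of_support_subset _ (s := Finset.univ.image
    (fun i : σ => (Finsupp.single i 1 : σ →₀ ℕ)))]
  · rw [Finset.sum_image (fun i _ j _ h => hinj h)]
    refine Finset.sum_congr rfl fun i _ => ?_
    rw [Finsupp.prod_single_index (h := fun i k => (a i) ^ k) (pow_zero _), pow_one, smul_eq_mul]
  · intro e he
    by_contra hcon
    exact he (h1 e hcon)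

/-! ### evaluation of truncations -/

theorem eval_truncTotal {σ : Type*} [Fintype σ] {R : Type*} [CommRing R] (N : ℕ)
    (F : MvPowerSeries σ R) (Y : σ → R) :
    MvPolynomial.eval Y (truncTotal N F) =
      ∑ d ∈ (Finsupp.finite_of_degree_lt N).toFinset, coeff d F * d.prod (fun i k => Y i ^ k) := by
  unfold truncTotal
  rw [truncFinset_apply, map_sum]
  exact Finset.sum_congr rfl fun d _ => MvPolynomial.eval_monomial

theorem eval_truncTotal_rescale {σ : Type*} [Fintype σ] {R R' : Type*} [CommRing R] [CommRing R']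
    (φ : R →+* R') (c : R') (N : ℕ) (F : MvPowerSeries σ R) (Y : σ → R') (Y' : σ → R)
    (hY : ∀ i, c * Y i = φ (Y' i)) :
    MvPolynomial.eval Y (truncTotal N (rescale (fun _ => c) (MvPowerSeries.map φ F))) =
      φ (MvPolynomial.eval Y' (truncTotal N F)) := by
  rw [eval_truncTotal, eval_truncTotal, map_sum]
  refine Finset.sum_congr rfl fun d _ => ?_
  rw [coeff_rescale, coeff_map, map_mul, map_finsuppProd]
  have h1 : (d.prod fun i k => φ (Y' i ^ k)) = (d.prod fun _ m => c ^ m) * d.prod fun i k => Y i ^ k := by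
    rw [← Finsupp.prod_mul]
    refine Finsupp.prod_congr fun i _ => ?_
    rw [map_pow, ← hY, mul_pow]
  rw [h1]
  ring

theorem evi_sub_trunc {ι : Type*} [Fintype ι] {z : ι → OC C} {ρ : ℝ} (hρ : ρ < 1) (hρ0 : 0 ≤ ρ)
    (hz : ∀ i, ‖z i‖ ≤ ρ) (F : MvPowerSeries ι (OC C)) (N : ℕ) :
    ‖evi z F - MvPolynomial.eval z (truncTotal N F)‖ ≤ ρ ^ N := by
  have hz' : ∀ i, ‖z i‖ < 1 := fun i => (hz i).trans_lt hρ
  have h1 : MvPolynomial.eval z (truncTotal N F) =
      evi z ((truncTotal N F : MvPolynomial ι (OC C)) : MvPowerSeries ι (OC C)) := by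
    unfold evi
    rw [ev_coe]
    rfl
  unfold evi at h1 ⊢
  rw [h1, ← ev_sub _ _ (nilp hz')]
  refine norm_evi_le hρ hz hρ0 _ N fun d hd => ?_
  rw [map_sub, MvPolynomial.coeff_coe, coeff_truncTotal _ hd, sub_self]

theorem subst_rescale_map {σ τ R R' : Type*} [Finite σ] [Finite τ] [CommRing R] [CommRing R'] (φ : R →+* R')
    (c : R') {a : σ → MvPowerSeries τ R} (ha : ∀ i, constantCoeff (a i) = 0)
    (g : MvPowerSeries σ R) :
    subst (fun i => rescale (fun _ => c) (MvPowerSeries.map φ (a i))) (MvPowerSeries.map φ g) =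
      rescale (fun _ => c) (MvPowerSeries.map φ (subst a g)) := by
  have ha' : HasSubst a := hasSubst_of_constantCoeff_zero ha
  have hX : HasSubst ((fun _ : τ => c) • (X : τ → MvPowerSeries τ R')) := HasSubst.smul_X _
  rw [rescale_eq_subst, map_subst ha', subst_comp_subst_apply (ha'.map φ) hX]
  congr 1
  funext i
  rw [rescale_eq_subst]

end Crest.Agent.LT95
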