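import Crest.Agent.LT95.Top
import Crest.Agent.LT.Special

/-! # STAR: formal part (row 227) -/

set_option autoImplicit false
set_option linter.unusedSectionVars false

namespace Crest.Agent.LT95

open Crest.LubinTate MvPowerSeries Crest.Agent.LT
open scoped MvPowerSeries.WithPiTopology

/-! ### linear coefficients -/

section lin

variable {τ R : Type*} [CommRing R]

theorem coeff_one_mul (l : τ) (f g : MvPowerSeries τ R) :
    coeff (Finsupp.single l 1) (f * g) = constantCoeff f * coeff (Finsupp.single l 1) g +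
      coeff (Finsupp.single l 1) f * constantCoeff g := by
  classical
  rw [coeff_mul, Finsupp.antidiagonal_single, Finset.sum_map]
  have : Finset.HasAntidiagonal.antidiagonal (1 : ℕ) = {(0, 1), (1, 0)} := rfl
  rw [this, Finset.sum_pair (by simp)]
  simp

theorem coeff_one_pow (l : τ) (f : MvPowerSeries τ R) (k : ℕ) :
    coeff (Finsupp.single l 1) (f ^ k) =
      (k : R) * constantCoeff f ^ (k - 1) * coeff (Finsupp.single l 1) f := by
  classical
  induction k with
  | zero =>
    rw [pow_zero, coeff_one, if_neg (by simp)]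
    simp
  | succ k ih =>
    rw [pow_succ, coeff_one_mul, ih, map_pow]
    rcases k with _ | k
    · simp
    · simp only [Nat.add_sub_cancel, Nat.cast_add, Nat.cast_one]
      ring

end lin

variable {C : Type*} [NormedField C] [IsUltrametricDist C] [CompleteSpace C]

section linev

variable {τ : Type*} [Finite τ] {R : Type*} [CommRing R]

/-- linear coefficient of an evaluation -/
theorem coeff_one_ev1 (T : R →+* MvPowerSeries τ (OC C)) (a : MvPowerSeries τ (OC C))
    (ha : ‖constantCoeff a‖ < 1) (l : τ) (hl : coeff (Finsupp.single l 1) a = 0)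
    (f : PowerSeries R) :
    coeff (Finsupp.single l 1) (ev1 T a f) = ev1 (RingHom.id (OC C)) (constantCoeff a)
      (PowerSeries.mk fun m => coeff (Finsupp.single l 1) (T (PowerSeries.coeff m f))) := by
  have h1 := hasSum_ev1 T a (tn_mv ha) f
  have h2 := (MvPowerSeries.WithPiTopology.hasSum_iff_hasSum_coeff.mp h1) (Finsupp.single l 1)
  have h3 := hasSum_ev1 (RingHom.id (OC C)) (constantCoeff a) (tn1 ha)
    (PowerSeries.mk fun m => coeff (Finsupp.single l 1) (T (PowerSeries.coeff m f)))
  refine h2.unique ?_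
  convert h3 using 2 with m
  rw [coeff_one_mul, coeff_one_pow, hl, PowerSeries.coeff_mk, mul_zero, mul_zero, zero_add,
    map_pow, RingHom.id_apply]

end linev

variable {p n h r : ℕ} [Fact p.Prime] [CharP C p]

section tay

variable {τ τ' : Type*} [Finite τ] [Finite τ']

theorem x_X_lt (D : CData p n h r C) (l : Fin r) : ‖D.x (X l)‖ < 1 := D.xlt _ (by simp)

theorem tay_tn (D : CData p n h r C) (e : Fin r → MvPowerSeries τ (OC C))
    (he : ∀ l, constantCoeff (e l) = 0) (l : Fin r) :
    IsTopologicallyNilpotent (MvPowerSeries.C (D.x (X l)) + e l) := by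
  apply tn_mv
  rw [map_add, he, add_zero, constantCoeff_C]
  exact x_X_lt D l

/-- the ring hom `f ↦ f(x + e)` -/
noncomputable def tay (D : CData p n h r C) (e : Fin r → MvPowerSeries τ (OC C))
    (he : ∀ l, constantCoeff (e l) = 0) :
    MvPowerSeries (Fin r) (GaloisField p n) →+* MvPowerSeries τ (OC C) :=
  evHom ((MvPowerSeries.C : OC C →+* MvPowerSeries τ (OC C)).comp (D.x.comp MvPowerSeries.C))
    (fun l => MvPowerSeries.C (D.x (X l)) + e l) (tay_tn D e he)

variable {S' : Type*} [CommRing S'] [UniformSpace S'] [IsUniformAddGroup S']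
  [IsTopologicalRing S'] [IsLinearTopology S' S'] [T2Space S'] [CompleteSpace S']

theorem map_tay (D : CData p n h r C) (e : Fin r → MvPowerSeries τ (OC C))
    (he : ∀ l, constantCoeff (e l) = 0) (g : MvPowerSeries τ (OC C) →+* S') (hg : Continuous g)
    (f : MvPowerSeries (Fin r) (GaloisField p n)) :
    g (tay D e he f) = ev ((g.comp MvPowerSeries.C).comp (D.x.comp MvPowerSeries.C))
      (fun l => g (MvPowerSeries.C (D.x (X l))) + g (e l)) f := by
  unfold tay
  rw [evHom_apply, map_ev g hg _ _ (tay_tn D e he)]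
  congr 1
  funext l
  rw [map_add]

end tay

end Crest.Agent.LT95

namespace Crest.Agent.LT95

open Crest.LubinTate MvPowerSeries Crest.Agent.LT
open scoped MvPowerSeries.WithPiTopology

variable {p n h r : ℕ} [Fact p.Prime]
variable {C : Type*} [NontriviallyNormedField C] [CompleteSpace C] [IsUltrametricDist C]
  [CharP C p] [IsAlgClosed C]

section tay2

variable {τ τ' : Type*} [Finite τ] [Finite τ']

theorem cc_tay (D : CData p n h r C) (e : Fin r → MvPowerSeries τ (OC C))
    (he : ∀ l, constantCoeff (e l) = 0) (f : MvPowerSeries (Fin r) (GaloisField p n)) :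
    constantCoeff (tay D e he f) = D.x f := by
  rw [map_tay D e he constantCoeff (WithPiTopology.continuous_constantCoeff (OC C)),
    D.point_eq_ev f]
  have h1 : ((constantCoeff : MvPowerSeries τ (OC C) →+* OC C).comp MvPowerSeries.C).comp
      (D.x.comp MvPowerSeries.C) = D.x.comp MvPowerSeries.C := by
    ext c
    simp only [RingHom.comp_apply, constantCoeff_C]
  rw [h1]
  congr 1
  funext l
  rw [he, add_zero, constantCoeff_C]

/-- evaluation of a Taylor expansion -/
theorem evi_tay (D : CData p n h r C) (e : Fin r → MvPowerSeries τ (OC C))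
    (he : ∀ l, constantCoeff (e l) = 0) (z : τ → OC C) (hz : ∀ i, ‖z i‖ < 1)
    (x' : MvPowerSeries (Fin r) (GaloisField p n) →+* OC C) (hx' : D.IsPoint x')
    (hu : ∀ l, x' (X l) = D.x (X l) + evi z (e l)) (f : MvPowerSeries (Fin r) (GaloisField p n)) :
    evi z (tay D e he f) = x' f := by
  have h0 : evi z (tay D e he f) = evHom (RingHom.id (OC C)) z (nilp hz) (tay D e he f) :=
    (evHom_apply _ _ _ _).symm
  rw [h0, map_tay D e he _ (continuous_evHom_of (RingHom.id (OC C)) continuous_id z (nilp hz))]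
  have h2 := (D.at x' hx').point_eq_ev f
  change x' f = ev (x'.comp MvPowerSeries.C) (fun l => x' (X l)) f at h2
  rw [h2]
  have h1 : ((evHom (RingHom.id (OC C)) z (nilp hz)).comp MvPowerSeries.C).comp
      (D.x.comp MvPowerSeries.C) = x'.comp MvPowerSeries.C := by
    ext c
    simp only [RingHom.comp_apply]
    rw [evHom_apply, ev_C _ _ (nilp hz), RingHom.id_apply, ← hx'.const c]
  rw [h1]
  congr 1
  funext l
  rw [hu, evHom_apply, evHom_apply, ev_C _ _ (nilp hz), RingHom.id_apply]

/-- substitution into a Taylor expansion -/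
theorem subst_tay (D : CData p n h r C) (e : Fin r → MvPowerSeries τ (OC C))
    (he : ∀ l, constantCoeff (e l) = 0) (a : τ → MvPowerSeries τ' (OC C))
    (ha : ∀ i, constantCoeff (a i) = 0) (e' : Fin r → MvPowerSeries τ' (OC C))
    (he' : ∀ l, constantCoeff (e' l) = 0) (hee : ∀ l, subst a (e l) = e' l)
    (f : MvPowerSeries (Fin r) (GaloisField p n)) :
    subst a (tay D e he f) = tay D e' he' f := by
  have hs : HasSubst a := hasSubst_of_constantCoeff_zero ha
  have ht : ∀ i, IsTopologicallyNilpotent (a i) := fun i => tn_mv0 (ha i)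
  rw [← ev_C_eq_subst a ha, ← evHom_apply _ _ ht,
    map_tay D e he _ (continuous_evHom_of (MvPowerSeries.C : OC C →+* MvPowerSeries τ' (OC C))
      WithPiTopology.continuous_C a ht)]
  have h2 := map_tay D e' he' (RingHom.id _) continuous_id f
  rw [RingHom.id_apply] at h2
  rw [h2]
  have h1 : ((evHom (MvPowerSeries.C : OC C →+* MvPowerSeries τ' (OC C)) a ht).comp
      MvPowerSeries.C) = (RingHom.id _).comp MvPowerSeries.C := by
    ext1 c
    simp only [RingHom.comp_apply, RingHom.id_apply]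
    rw [evHom_apply, ev_C _ _ ht]
  rw [h1]
  congr 1
  funext l
  rw [evHom_apply, evHom_apply, ev_C _ _ ht, RingHom.id_apply, RingHom.id_apply,
    ev_C_eq_subst a ha, hee]

theorem tay_zero (D : CData p n h r C) (f : MvPowerSeries (Fin r) (GaloisField p n)) :
    tay D (fun _ => (0 : MvPowerSeries τ (OC C))) (fun _ => map_zero _) f =
      MvPowerSeries.C (D.x f) := by
  have h2 := map_tay D (fun _ => (0 : MvPowerSeries τ (OC C))) (fun _ => map_zero _)
    (RingHom.id _) continuous_id f
  rw [RingHom.id_apply] at h2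
  rw [h2, D.point_eq_ev f, map_ev (MvPowerSeries.C : OC C →+* MvPowerSeries τ (OC C))
    WithPiTopology.continuous_C _ _ (fun i => tn1 (x_X_lt D i))]
  congr 1
  funext l
  simp

end tay2

end Crest.Agent.LT95

namespace Crest.Agent.LT95

open Crest.LubinTate MvPowerSeries Crest.Agent.LT
open scoped MvPowerSeries.WithPiTopology

variable {p n h r : ℕ} [Fact p.Prime]
variable {C : Type*} [NontriviallyNormedField C] [CompleteSpace C] [IsUltrametricDist C]
  [CharP C p] [IsAlgClosed C]

theorem Wm_rec (D : CData p n h r C) [CharP (MvPowerSeries (Fin r) (GaloisField p n)) p] (m : ℕ)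
    (Wm W' : PowerSeries (MvPowerSeries (Fin r) (GaloisField p n)))
    (h0 : PowerSeries.constantCoeff Wm = 0)
    (hm : mulSeries D.H (p ^ m) = PowerSeries.subst (PowerSeries.X ^ ((p ^ h) ^ m) :
      PowerSeries (MvPowerSeries (Fin r) (GaloisField p n))) Wm)
    (hm' : mulSeries D.H (p ^ (m + 1)) = PowerSeries.subst (PowerSeries.X ^ ((p ^ h) ^ (m + 1)) :
      PowerSeries (MvPowerSeries (Fin r) (GaloisField p n))) W') :
    W' = PowerSeries.subst (PowerSeries.map
      (iterateFrobenius (MvPowerSeries (Fin r) (GaloisField p n)) p h) Wm) D.W := by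
  have := D.Hcomm
  have hp0 : p ≠ 0 := (Fact.out : p.Prime).ne_zero
  have hQ : (p ^ h) ^ (m + 1) ≠ 0 := pow_ne_zero _ (pow_ne_zero _ hp0)
  apply tor_subst_X_pow_inj hQ
  rw [← hm', pow_succ p m, mulSeries_mul]
  have hV0 : PowerSeries.constantCoeff (PowerSeries.map
      (iterateFrobenius (MvPowerSeries (Fin r) (GaloisField p n)) p h) Wm) = 0 := by
    rw [← PowerSeries.coeff_zero_eq_constantCoeff_apply, PowerSeries.coeff_map,
      PowerSeries.coeff_zero_eq_constantCoeff_apply, h0, map_zero]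
  have hs := PowerSeries.HasSubst.of_constantCoeff_zero' (constantCoeff_mulSeries D.H (p ^ m))
  rw [D.HW, PowerSeries.subst_comp_subst_apply
    (PowerSeries.HasSubst.X_pow (pow_ne_zero _ hp0)) hs, PowerSeries.subst_pow hs,
    PowerSeries.subst_X hs, PowerSeries.subst_comp_subst_apply
    (PowerSeries.HasSubst.of_constantCoeff_zero' hV0) (PowerSeries.HasSubst.X_pow hQ)]
  congr 1
  rw [tor_pow_char p, hm, ← PowerSeries.expand_apply ((p ^ h) ^ m)
    (pow_ne_zero _ (pow_ne_zero _ hp0)), PowerSeries.map_expand,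
    ← PowerSeries.expand_apply (p ^ h) (pow_ne_zero _ hp0), ← PowerSeries.expand_mul,
    ← PowerSeries.expand_apply ((p ^ h) ^ (m + 1)) hQ]
  congr 2
  rw [pow_succ']

end Crest.Agent.LT95

namespace Crest.Agent.LT95

open Crest.LubinTate MvPowerSeries Crest.Agent.LT
open scoped MvPowerSeries.WithPiTopology

variable {p n h r : ℕ} [Fact p.Prime]
variable {C : Type*} [NontriviallyNormedField C] [CompleteSpace C] [IsUltrametricDist C]
  [CharP C p] [IsAlgClosed C]

section FF

variable [CharP (MvPowerSeries (Fin r) (GaloisField p n)) p]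

/-- `H^(Q^j)` -/
noncomputable abbrev Hj (D : CData p n h r C) (j : ℕ) :
    FormalGroup (MvPowerSeries (Fin r) (GaloisField p n)) :=
  D.H.map (iterateFrobenius (MvPowerSeries (Fin r) (GaloisField p n)) p (h * j))

/-- Taylor expansion with variables `inl` -/
noncomputable abbrev tayl (D : CData p n h r C) :
    MvPowerSeries (Fin r) (GaloisField p n) →+* MvPowerSeries (Fin r ⊕ Fin r) (OC C) :=
  tay D (fun l => X (Sum.inl l)) (fun _ => constantCoeff_X _)

/-- the equations `W_{j,x+U}(τ_i + σ_i)` -/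
noncomputable def FF (D : CData p n h r C) (j : ℕ)
    (Wj : PowerSeries (MvPowerSeries (Fin r) (GaloisField p n))) (τ : Fin r → OC C) (i : Fin r) :
    MvPowerSeries (Fin r ⊕ Fin r) (OC C) :=
  ev1 (tayl D) (op (Hj D j) ((MvPowerSeries.C : OC C →+* MvPowerSeries (Fin r ⊕ Fin r) (OC C)).comp D.x)
    (MvPowerSeries.C (τ i)) (X (Sum.inr i))) Wj

variable (D : CData p n h r C) (j : ℕ)
    (Wj : PowerSeries (MvPowerSeries (Fin r) (GaloisField p n))) (τ : Fin r → OC C)
    (hτ : ∀ i, ‖τ i‖ < 1)

variable {S' : Type*} [CommRing S'] [UniformSpace S'] [IsUniformAddGroup S']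
  [IsTopologicalRing S'] [IsLinearTopology S' S'] [T2Space S'] [CompleteSpace S']

include hτ in
theorem tnτ (i : Fin r) :
    IsTopologicallyNilpotent (MvPowerSeries.C (τ i) : MvPowerSeries (Fin r ⊕ Fin r) (OC C)) :=
  tn_mv (by rw [constantCoeff_C]; exact hτ i)

theorem tnX (i : Fin r) :
    IsTopologicallyNilpotent (X (Sum.inr i) : MvPowerSeries (Fin r ⊕ Fin r) (OC C)) :=
  tn_mv0 (constantCoeff_X _)

include hτ in
theorem map_FF (g : MvPowerSeries (Fin r ⊕ Fin r) (OC C) →+* S') (hg : Continuous g) (i : Fin r) :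
    g (FF D j Wj τ i) = ev1 (g.comp (tayl D))
      (op (Hj D j) (g.comp ((MvPowerSeries.C : OC C →+* MvPowerSeries (Fin r ⊕ Fin r) (OC C)).comp
        D.x)) (g (MvPowerSeries.C (τ i))) (g (X (Sum.inr i)))) Wj := by
  unfold FF
  rw [map_ev1 g hg _ _ (E7.isTopologicallyNilpotent_op _ _ (tnτ τ hτ i) (tnX i)),
    map_op g hg _ _ (tnτ τ hτ i) (tnX i)]

include hτ in
theorem cc_FF (h0 : ∀ i, ev1 D.x (τ i) Wj = 0) (i : Fin r) :
    constantCoeff (FF D j Wj τ i) = 0 := by
  rw [map_FF D j Wj τ hτ constantCoeff (WithPiTopology.continuous_constantCoeff (OC C)),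
    constantCoeff_C, constantCoeff_X]
  have h1 : (constantCoeff : MvPowerSeries (Fin r ⊕ Fin r) (OC C) →+* OC C).comp (tayl D) = D.x := by
    ext1 f
    exact cc_tay D _ (fun _ => constantCoeff_X _) f
  have h2 : (constantCoeff : MvPowerSeries (Fin r ⊕ Fin r) (OC C) →+* OC C).comp
      ((MvPowerSeries.C : OC C →+* MvPowerSeries (Fin r ⊕ Fin r) (OC C)).comp D.x) = D.x := by
    ext1 f
    simp only [RingHom.comp_apply, constantCoeff_C]
  rw [h1, h2, E7.op_zero' _ _ (tn1 (hτ i)), h0]

include hτ in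
/-- value at a point -/
theorem evi_FF (u s : Fin r → OC C) (hu : ∀ i, ‖u i‖ < 1) (hs : ∀ i, ‖s i‖ < 1)
    (x' : MvPowerSeries (Fin r) (GaloisField p n) →+* OC C) (hx' : D.IsPoint x')
    (hux : ∀ l, x' (X l) = D.x (X l) + u l) (i : Fin r) :
    evi (Sum.elim u s) (FF D j Wj τ i) = ev1 x' (op (Hj D j) D.x (τ i) (s i)) Wj := by
  have hz : ∀ k, ‖Sum.elim u s k‖ < 1 := by
    rintro (k | k)
    · exact hu k
    · exact hs k
  have h0 : evi (Sum.elim u s) (FF D j Wj τ i) =
      evHom (RingHom.id (OC C)) (Sum.elim u s) (nilp hz) (FF D j Wj τ i) :=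
    (evHom_apply _ _ _ _).symm
  rw [h0, map_FF D j Wj τ hτ _ (continuous_evHom_of (RingHom.id (OC C)) continuous_id _ (nilp hz))]
  have h1 : (evHom (RingHom.id (OC C)) (Sum.elim u s) (nilp hz)).comp (tayl D) = x' := by
    ext1 f
    rw [RingHom.comp_apply, evHom_apply]
    refine evi_tay D _ _ _ hz x' hx' (fun l => ?_) f
    rw [hux l]
    congr 1
    exact (ev_X (RingHom.id (OC C)) _ (nilp hz) (Sum.inl l)).symm
  have h2 : (evHom (RingHom.id (OC C)) (Sum.elim u s) (nilp hz)).comp
      ((MvPowerSeries.C : OC C →+* MvPowerSeries (Fin r ⊕ Fin r) (OC C)).comp D.x) = D.x := by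
    ext1 f
    simp only [RingHom.comp_apply]
    rw [evHom_apply, ev_C _ _ (nilp hz), RingHom.id_apply]
  rw [h1, h2, evHom_apply, evHom_apply, ev_C _ _ (nilp hz), ev_X _ _ (nilp hz), RingHom.id_apply,
    Sum.elim_inr]

/-- linear coefficient in a `σ` variable -/
theorem coeff_inr_subst (G : MvPowerSeries (Fin r ⊕ Fin r) (OC C)) (l : Fin r) :
    coeff (Finsupp.single (Sum.inr l) 1) G = coeff (Finsupp.single l 1)
      (subst (Sum.elim (fun _ => 0) (fun l => X l) : Fin r ⊕ Fin r → MvPowerSeries (Fin r) (OC C)) G) := by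
  classical
  rw [coeff_single_subst, Fintype.sum_sum_type, Finset.sum_eq_zero, Finset.sum_eq_single l, zero_add]
  · rw [Sum.elim_inr, coeff_X, if_pos rfl, mul_one]
  · intro k _ hk
    rw [Sum.elim_inr, coeff_X, if_neg, mul_zero]
    intro h
    exact hk (Finsupp.single_left_injective one_ne_zero h).symm
  · intro h
    exact absurd (Finset.mem_univ _) h
  · intro k _
    rw [Sum.elim_inl, map_zero, mul_zero]
  · rintro (k | k)
    · exact map_zero _
    · exact constantCoeff_X _

theorem coeff_inl_subst (G : MvPowerSeries (Fin r ⊕ Fin r) (OC C)) (l : Fin r) :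
    coeff (Finsupp.single (Sum.inl l) 1) G = coeff (Finsupp.single l 1)
      (subst (Sum.elim (fun l => X l) (fun _ => 0) : Fin r ⊕ Fin r → MvPowerSeries (Fin r) (OC C)) G) := by
  classical
  rw [coeff_single_subst, Fintype.sum_sum_type, Finset.sum_eq_single l]
  · rw [Finset.sum_eq_zero, add_zero]
    · rw [Sum.elim_inl, coeff_X, if_pos rfl, mul_one]
    · intro k _
      rw [Sum.elim_inr, map_zero, mul_zero]
  · intro k _ hk
    rw [Sum.elim_inl, coeff_X, if_neg, mul_zero]
    intro h
    exact hk (Finsupp.single_left_injective one_ne_zero h).symm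
  · intro h
    exact absurd (Finset.mem_univ _) h
  · rintro (k | k)
    · exact constantCoeff_X _
    · exact map_zero _

/-- linear coefficients of `f(X_i)` -/
theorem coeff_subst_X {σ : Type*} [Finite σ] [DecidableEq σ] (f : PowerSeries (OC C)) (i l : σ) :
    coeff (Finsupp.single l 1) (PowerSeries.subst (X i : MvPowerSeries σ (OC C)) f) =
      if i = l then PowerSeries.coeff 1 f else 0 := by
  unfold PowerSeries.subst
  rw [coeff_single_subst (fun _ => constantCoeff_X i)]
  simp only [Finset.univ_unique, Finset.sum_singleton]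
  rw [coeff_X]
  split_ifs with h1 h2 h2
  · rw [mul_one]
    rfl
  · exact absurd (Finsupp.single_left_injective one_ne_zero h1).symm h2
  · exact absurd (by rw [h2]) h1
  · rw [mul_zero]

/-- linear coefficient in `σ_l` of the equations -/
theorem coeff_inr_FF (hτ : ∀ i, ‖τ i‖ < 1) (h0 : ∀ i, ev1 D.x (τ i) Wj = 0)
    (hhom : IsFGHom (Hj D j) D.H Wj) (i l : Fin r) :
    coeff (Finsupp.single (Sum.inr l) 1) (FF D j Wj τ i) =
      if i = l then D.x (PowerSeries.coeff 1 Wj) else 0 := by
  set a : Fin r ⊕ Fin r → MvPowerSeries (Fin r) (OC C) := Sum.elim (fun _ => 0) (fun l => X l)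
    with hadef
  have ha : ∀ i, constantCoeff (a i) = 0 := by
    rintro (k | k)
    · exact map_zero _
    · exact constantCoeff_X _
  have ht : ∀ i, IsTopologicallyNilpotent (a i) := fun i => tn_mv0 (ha i)
  have hg := continuous_evHom_of (MvPowerSeries.C : OC C →+* MvPowerSeries (Fin r) (OC C))
      WithPiTopology.continuous_C a ht
  rw [coeff_inr_subst, ← ev_C_eq_subst a ha, ← evHom_apply _ _ ht, map_FF D j Wj τ hτ _ hg]
  have h1 : (evHom (MvPowerSeries.C : OC C →+* MvPowerSeries (Fin r) (OC C)) a ht).comp (tayl D) =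
      (MvPowerSeries.C : OC C →+* MvPowerSeries (Fin r) (OC C)).comp D.x := by
    ext1 f
    rw [RingHom.comp_apply, evHom_apply, ev_C_eq_subst a ha, RingHom.comp_apply, ← tay_zero D f]
    refine subst_tay D _ _ a ha _ _ (fun l => ?_) f
    rw [subst_X (hasSubst_of_constantCoeff_zero ha)]
    rfl
  have h2 : (evHom (MvPowerSeries.C : OC C →+* MvPowerSeries (Fin r) (OC C)) a ht).comp
      ((MvPowerSeries.C : OC C →+* MvPowerSeries (Fin r ⊕ Fin r) (OC C)).comp D.x) =
      (MvPowerSeries.C : OC C →+* MvPowerSeries (Fin r) (OC C)).comp D.x := by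
    ext1 f
    simp only [RingHom.comp_apply]
    rw [evHom_apply, ev_C _ _ ht]
  have h3 : IsTopologicallyNilpotent (MvPowerSeries.C (τ i) : MvPowerSeries (Fin r) (OC C)) :=
    tn_mv (by rw [constantCoeff_C]; exact hτ i)
  have h4 : IsTopologicallyNilpotent (X i : MvPowerSeries (Fin r) (OC C)) :=
    tn_mv0 (constantCoeff_X _)
  rw [h1, h2, evHom_apply, evHom_apply, ev_C _ _ ht, ev_X _ _ ht]
  change coeff (Finsupp.single l 1) (ev1 _ (op (Hj D j) _ (MvPowerSeries.C (τ i)) (X i)) Wj) = _
  rw [E7.op_hom hhom h3 h4, ← map_ev1 (MvPowerSeries.C : OC C →+* MvPowerSeries (Fin r) (OC C))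
    WithPiTopology.continuous_C D.x (τ i) (tn1 (hτ i)), h0, map_zero, E7.zero_op' _ _
    (isTopologicallyNilpotent_ev1 _ _ h4 _ hhom.1), ← ev1_map _ _ _ h4]
  have h5 : ev1 (MvPowerSeries.C : OC C →+* MvPowerSeries (Fin r) (OC C)) (X i)
      (PowerSeries.map D.x Wj) = PowerSeries.subst (X i : MvPowerSeries (Fin r) (OC C))
      (PowerSeries.map D.x Wj) :=
    ev_C_eq_subst (fun _ : Unit => (X i : MvPowerSeries (Fin r) (OC C)))
      (fun _ => constantCoeff_X i) _
  rw [h5, coeff_subst_X, PowerSeries.coeff_map]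

/-- linear coefficient in `U_l` of the equations -/
theorem coeff_inl_FF (hτ : ∀ i, ‖τ i‖ < 1) (i l : Fin r) :
    coeff (Finsupp.single (Sum.inl l) 1) (FF D j Wj τ i) =
      coeff (Finsupp.single l 1) (ev1 (tay D (fun l => (X l : MvPowerSeries (Fin r) (OC C)))
        (fun _ => constantCoeff_X _)) (MvPowerSeries.C (τ i)) Wj) := by
  set a : Fin r ⊕ Fin r → MvPowerSeries (Fin r) (OC C) := Sum.elim (fun l => X l) (fun _ => 0)
    with hadef
  have ha : ∀ i, constantCoeff (a i) = 0 := by
    rintro (k | k)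
    · exact constantCoeff_X _
    · exact map_zero _
  have ht : ∀ i, IsTopologicallyNilpotent (a i) := fun i => tn_mv0 (ha i)
  have hg := continuous_evHom_of (MvPowerSeries.C : OC C →+* MvPowerSeries (Fin r) (OC C))
      WithPiTopology.continuous_C a ht
  rw [coeff_inl_subst, ← ev_C_eq_subst a ha, ← evHom_apply _ _ ht, map_FF D j Wj τ hτ _ hg]
  have h1 : (evHom (MvPowerSeries.C : OC C →+* MvPowerSeries (Fin r) (OC C)) a ht).comp (tayl D) =
      tay D (fun l => (X l : MvPowerSeries (Fin r) (OC C))) (fun _ => constantCoeff_X _) := by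
    ext1 f
    rw [RingHom.comp_apply, evHom_apply, ev_C_eq_subst a ha]
    refine subst_tay D _ _ a ha _ _ (fun l => ?_) f
    rw [subst_X (hasSubst_of_constantCoeff_zero ha)]
    rfl
  have h3 : IsTopologicallyNilpotent (MvPowerSeries.C (τ i) : MvPowerSeries (Fin r) (OC C)) :=
    tn_mv (by rw [constantCoeff_C]; exact hτ i)
  rw [h1, evHom_apply, evHom_apply, ev_C _ _ ht, ev_X _ _ ht]
  change coeff (Finsupp.single l 1) (ev1 _ (op (Hj D j) _ (MvPowerSeries.C (τ i)) 0) Wj) = _
  rw [E7.op_zero' _ _ h3]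

/-- the `U`-linear coefficient of `W_{m+1,x+U}(τ''^Q)` -/
theorem coeff_one_ev1_Wm (Wm : PowerSeries (MvPowerSeries (Fin r) (GaloisField p n)))
    (hm0 : PowerSeries.constantCoeff Wm = 0)
    (hrec : Wj = PowerSeries.subst (PowerSeries.map
      (iterateFrobenius (MvPowerSeries (Fin r) (GaloisField p n)) p h) Wm) D.W)
    (T : MvPowerSeries (Fin r) (GaloisField p n) →+* MvPowerSeries (Fin r) (OC C))
    (hT : ∀ f, constantCoeff (T f) = D.x f) (y : OC C) (hy : ‖y‖ < 1) (l : Fin r) :
    coeff (Finsupp.single l 1) (ev1 T (MvPowerSeries.C (y ^ (p ^ h))) Wj) =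
      ev1 (RingHom.id (OC C)) ((ev1 D.x y Wm) ^ (p ^ h)) (PowerSeries.mk fun m =>
        coeff (Finsupp.single l 1) (T (PowerSeries.coeff m D.W))) := by
  have hp0 : p ≠ 0 := (Fact.out : p.Prime).ne_zero
  have hcO : CharP (OC C) p := OC.charP
  have hcS : CharP (MvPowerSeries (Fin r) (OC C)) p :=
    charP_of_injective_ringHom (f := (MvPowerSeries.C : OC C →+* MvPowerSeries (Fin r) (OC C)))
      MvPowerSeries.C_injective p
  have hyQ : ‖y ^ (p ^ h)‖ < 1 := by
    rw [OC.norm_pow']
    exact pow_lt_one₀ (norm_nonneg _) hy (pow_ne_zero _ hp0)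
  have ht : IsTopologicallyNilpotent (MvPowerSeries.C (y ^ (p ^ h)) :
      MvPowerSeries (Fin r) (OC C)) := tn_mv (by rw [constantCoeff_C]; exact hyQ)
  have ht' : IsTopologicallyNilpotent (MvPowerSeries.C y : MvPowerSeries (Fin r) (OC C)) :=
    tn_mv (by rw [constantCoeff_C]; exact hy)
  have hV0 : PowerSeries.constantCoeff (PowerSeries.map
      (iterateFrobenius (MvPowerSeries (Fin r) (GaloisField p n)) p h) Wm) = 0 := by
    rw [← PowerSeries.coeff_zero_eq_constantCoeff_apply, PowerSeries.coeff_map,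
      PowerSeries.coeff_zero_eq_constantCoeff_apply, hm0, map_zero]
  rw [hrec, ev1_subst _ _ ht _ hV0]
  -- the inner value is a `Q`-th power
  have hfr : ev1 T (MvPowerSeries.C (y ^ (p ^ h)) : MvPowerSeries (Fin r) (OC C))
      (PowerSeries.map (iterateFrobenius (MvPowerSeries (Fin r) (GaloisField p n)) p h) Wm) =
      (ev1 T (MvPowerSeries.C y) Wm) ^ (p ^ h) := by
    have hcont : Continuous (iterateFrobenius (MvPowerSeries (Fin r) (OC C)) p h) := by
      have : (⇑(iterateFrobenius (MvPowerSeries (Fin r) (OC C)) p h) :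
          MvPowerSeries (Fin r) (OC C) → MvPowerSeries (Fin r) (OC C)) = fun f => f ^ (p ^ h) := by
        funext f
        rw [iterateFrobenius_def]
      rw [this]
      exact continuous_pow _
    have h1 := map_ev1 _ hcont T _ ht' Wm
    rw [iterateFrobenius_def, iterateFrobenius_def, ← map_pow] at h1
    rw [h1, ev1_map _ _ _ ht]
    congr 1
    ext1 f
    simp only [RingHom.comp_apply, iterateFrobenius_def, map_pow]
  have hcc : constantCoeff ((ev1 T (MvPowerSeries.C y) Wm) ^ (p ^ h)) =
      (ev1 D.x y Wm) ^ (p ^ h) := by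
    rw [map_pow, map_ev1 constantCoeff (WithPiTopology.continuous_constantCoeff (OC C)) _ _ ht',
      constantCoeff_C]
    congr 2
    ext1 f
    exact hT f
  have hWy : ‖ev1 D.x y Wm‖ < 1 := by
    have := OC.norm_ev1_le D.x y hy Wm (M := 1) (N := 1) (fun d => OC.norm_le_one _) (by
      intro d hd
      have : d = 0 := by omega
      rw [this, PowerSeries.coeff_zero_eq_constantCoeff_apply, hm0])
    rw [one_mul, pow_one] at this
    exact this.trans_lt hy
  rw [hfr, coeff_one_ev1 T _ (by
    rw [hcc, OC.norm_pow']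
    exact pow_lt_one₀ (norm_nonneg _) hWy (pow_ne_zero _ hp0)) l _ D.W, hcc]
  rw [coeff_one_pow]
  have : ((p ^ h : ℕ) : OC C) = 0 := by
    rw [Nat.cast_pow, CharP.cast_eq_zero, zero_pow]
    have := D.hh
    omega
  rw [this, zero_mul, zero_mul]

/-- the equations `Log^(Q^j)(σ_i)` -/
noncomputable def GG (L : PowerSeries (OC C)) (i : Fin r) :
    MvPowerSeries (Fin r ⊕ Fin r) (OC C) :=
  PowerSeries.subst (X (Sum.inr i) : MvPowerSeries (Fin r ⊕ Fin r) (OC C)) L

theorem cc_GG (L : PowerSeries (OC C)) (hL : PowerSeries.constantCoeff L = 0) (i : Fin r) :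
    constantCoeff (GG L i) = 0 :=
  PowerSeries.constantCoeff_subst_eq_zero (constantCoeff_X _) _ hL

theorem evi_GG (L : PowerSeries (OC C)) (u s : Fin r → OC C) (hu : ∀ i, ‖u i‖ < 1)
    (hs : ∀ i, ‖s i‖ < 1) (i : Fin r) :
    evi (Sum.elim u s) (GG L i) = ev1 (RingHom.id (OC C)) (s i) L := by
  have hz : ∀ k, ‖Sum.elim u s k‖ < 1 := by
    rintro (k | k)
    · exact hu k
    · exact hs k
  unfold GG evi
  rw [ev_subst1 _ _ (nilp hz) _ (constantCoeff_X _), ev_X _ _ (nilp hz)]
  rfl

theorem coeff_GG (L : PowerSeries (OC C)) (i : Fin r) (l : Fin r ⊕ Fin r) :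
    coeff (Finsupp.single l 1) (GG L i) =
      if Sum.inr i = l then PowerSeries.coeff 1 L else 0 := by
  classical
  unfold GG
  rw [coeff_subst_X]

/-- the system of equations -/
noncomputable def PHI (L : PowerSeries (OC C)) :
    Fin r ⊕ Fin r → MvPowerSeries (Fin r ⊕ Fin r) (OC C) :=
  Sum.elim (FF D j Wj τ) (GG L)

theorem linM_PHI (hτ : ∀ i, ‖τ i‖ < 1) (h0 : ∀ i, ev1 D.x (τ i) Wj = 0)
    (hhom : IsFGHom (Hj D j) D.H Wj) (L : PowerSeries (OC C)) :
    linM (PHI D j Wj τ L) = Matrix.fromBlocks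
      (Matrix.of fun i l : Fin r => coeff (Finsupp.single l 1)
        (ev1 (tay D (fun l => (X l : MvPowerSeries (Fin r) (OC C)))
        (fun _ => constantCoeff_X _)) (MvPowerSeries.C (τ i)) Wj))
      (D.x (PowerSeries.coeff 1 Wj) • (1 : Matrix (Fin r) (Fin r) (OC C))) 0
      (PowerSeries.coeff 1 L • (1 : Matrix (Fin r) (Fin r) (OC C))) := by
  refine Matrix.ext fun i l => ?_
  rcases i with i | i <;> rcases l with l | l
  · change coeff _ (FF D j Wj τ i) = _
    rw [coeff_inl_FF D j Wj τ hτ]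
    rfl
  · change coeff _ (FF D j Wj τ i) = _
    rw [coeff_inr_FF D j Wj τ hτ h0 hhom, Matrix.fromBlocks_apply₁₂, Matrix.smul_apply,
      Matrix.one_apply, smul_eq_mul, mul_ite, mul_one, mul_zero]
  · change coeff _ (GG L i) = _
    rw [coeff_GG, if_neg (by simp)]
    rfl
  · change coeff _ (GG L i) = _
    rw [coeff_GG, Matrix.fromBlocks_apply₂₂, Matrix.smul_apply,
      Matrix.one_apply, smul_eq_mul, mul_ite, mul_one, mul_zero]
    simp only [Sum.inr.injEq]

end FF

end Crest.Agent.LT95
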