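import Crest.Agent.LT95.Eff

/-! # Effective implicit function theorem over the unit ball (row 227), main statement -/

set_option autoImplicit false
set_option linter.unusedSectionVars false

namespace Crest.Agent.LT95

open MvPowerSeries Finsupp Crest.Agent.LT

variable {C : Type*} [NormedField C] [IsUltrametricDist C] [CompleteSpace C]

section
variable {r : ℕ} (Φ : Fin r ⊕ Fin r → MvPowerSeries (Fin r ⊕ Fin r) (OC C))

/-- linear forms -/
noncomputable def wh (i : Fin r ⊕ Fin r) : MvPowerSeries (Fin r) (OC C) :=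
  ∑ l : Fin r, MvPowerSeries.C ((linM Φ).adjugate i (Sum.inr l)) * X l

theorem wh_const (i : Fin r ⊕ Fin r) : constantCoeff (wh Φ i) = 0 := by
  unfold wh
  rw [map_sum]
  exact Finset.sum_eq_zero fun l _ => by rw [map_mul, constantCoeff_X, mul_zero]

theorem wh_lin (i : Fin r ⊕ Fin r) (m : Fin r) :
    coeff (Finsupp.single m 1) (wh Φ i) = (linM Φ).adjugate i (Sum.inr m) := by
  classical
  unfold wh
  rw [map_sum, Finset.sum_eq_single m]
  · rw [coeff_C_mul, coeff_X, if_pos rfl, mul_one]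
  · intro l _ hl
    rw [coeff_C_mul, coeff_X, if_neg, mul_zero]
    intro h
    exact hl (Finsupp.single_left_injective one_ne_zero h).symm
  · intro h
    exact absurd (Finset.mem_univ m) h

/-- scaled inverse -/
noncomputable def sinv (l : Fin r) : MvPowerSeries (Fin r ⊕ Fin r) (OC C) :=
  MvPowerSeries.C (linM Φ).det * inv Φ (Sum.inl l)

theorem sinv_const (l : Fin r) : constantCoeff (sinv Φ l) = 0 := by
  unfold sinv
  rw [map_mul, (inv_near Φ).1, mul_zero]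

noncomputable def Uh (l : Fin r) : MvPowerSeries (Fin r) (OC C) := subst (wh Φ) (sinv Φ l)

theorem wh_hasSubst : HasSubst (wh Φ) := hasSubst_of_constantCoeff_zero (wh_const Φ)

theorem sinv_hasSubst : HasSubst (sinv Φ) := hasSubst_of_constantCoeff_zero (sinv_const Φ)

theorem Uh_const (l : Fin r) : constantCoeff (Uh Φ l) = 0 :=
  constantCoeff_subst_eq_zero (wh_hasSubst Φ) (wh_const Φ) (sinv_const Φ l)

theorem Uh_lin (l m : Fin r) : coeff (Finsupp.single m 1) (Uh Φ l) =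
    (linM Φ).det * (linM Φ).adjugate (Sum.inl l) (Sum.inr m) := by
  classical
  unfold Uh
  rw [coeff_single_subst (wh_const Φ), Finset.sum_eq_single (Sum.inl l)]
  · rw [wh_lin, sinv, coeff_C_mul, (inv_near Φ).2, coeff_X, if_pos rfl, mul_one]
  · intro i _ hi
    rw [sinv, coeff_C_mul, (inv_near Φ).2, coeff_X, if_neg, mul_zero, zero_mul]
    intro h
    exact hi (Finsupp.single_left_injective one_ne_zero h)
  · intro h
    exact absurd (Finset.mem_univ _) h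

/-- the implicit functions -/
noncomputable def UU (l : Fin r) : MvPowerSeries (Fin r) C :=
  rescale (fun _ => (((linM Φ).det : C) ^ 2)⁻¹) (MvPowerSeries.map (OC C).subtype (Uh Φ l))

theorem UU_const (l : Fin r) : constantCoeff (UU Φ l) = 0 := by
  unfold UU
  rw [← coeff_zero_eq_constantCoeff_apply, coeff_rescale, coeff_map,
    coeff_zero_eq_constantCoeff_apply, Uh_const, map_zero, mul_zero]

theorem UU_lin (l m : Fin r) (hκ : (linM Φ).det ≠ 0) : coeff (Finsupp.single m 1) (UU Φ l) =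
    ((linM Φ).det : C)⁻¹ * ((linM Φ).adjugate (Sum.inl l) (Sum.inr m) : OC C) := by
  unfold UU
  rw [coeff_rescale, coeff_map, Uh_lin,
    Finsupp.prod_single_index (h := fun _ m => (((linM Φ).det : C) ^ 2)⁻¹ ^ m) (pow_zero _),
    pow_one, map_mul]
  have h1 : ((linM Φ).det : C) ≠ 0 := by
    intro h
    exact hκ (Subtype.ext h)
  change ((((linM Φ).det : C) ^ 2)⁻¹) * (((linM Φ).det : C) *
    ((linM Φ).adjugate (Sum.inl l) (Sum.inr m) : OC C)) = _
  field_simp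

theorem subst_UU (g : MvPowerSeries (Fin r) (OC C)) :
    subst (UU Φ) (MvPowerSeries.map (OC C).subtype g) =
      rescale (fun _ => (((linM Φ).det : C) ^ 2)⁻¹)
        (MvPowerSeries.map (OC C).subtype (subst (Uh Φ) g)) :=
  subst_rescale_map (OC C).subtype _ (Uh_const Φ) g

theorem subst_Uh (g : MvPowerSeries (Fin r) (OC C)) :
    subst (Uh Φ) g = subst (wh Φ) (subst (sinv Φ) g) := by
  rw [subst_comp_subst_apply (sinv_hasSubst Φ) (wh_hasSubst Φ)]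
  rfl

end

section block

variable {r : ℕ} {K : Type*} [CommRing K] [IsDomain K]

/-- block matrices -/
theorem adj_block (J : Matrix (Fin r) (Fin r) K) (b lam : K) (hJ : J.det ≠ 0) (hb : b ≠ 0)
    (hlam : lam ≠ 0) (M : Matrix (Fin r ⊕ Fin r) (Fin r ⊕ Fin r) K)
    (hM : M = Matrix.fromBlocks J (b • (1 : Matrix (Fin r) (Fin r) K)) 0
      (lam • (1 : Matrix (Fin r) (Fin r) K))) :
    M.det ≠ 0 ∧ (Matrix.of fun l i : Fin r => M.adjugate (Sum.inl l) (Sum.inr i)).det ≠ 0 := by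
  have hdet : M.det ≠ 0 := by
    rw [hM, Matrix.det_fromBlocks_zero₂₁, Matrix.det_smul, Matrix.det_one, mul_one]
    exact mul_ne_zero hJ (pow_ne_zero _ hlam)
  refine ⟨hdet, ?_⟩
  set A := Matrix.of fun l i : Fin r => M.adjugate (Sum.inl l) (Sum.inl i) with hA
  set B := Matrix.of fun l i : Fin r => M.adjugate (Sum.inl l) (Sum.inr i) with hB
  have h1 := Matrix.adjugate_mul M
  have hAJ : A * J = M.det • (1 : Matrix (Fin r) (Fin r) K) := by
    ext l m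
    have h2 := congrFun (congrFun h1 (Sum.inl l)) (Sum.inl m)
    rw [Matrix.mul_apply, Fintype.sum_sum_type] at h2
    have h3 : ∀ a, M (Sum.inl a) (Sum.inl m) = J a m := fun a => by rw [hM]; rfl
    have h4 : ∀ a, M (Sum.inr a) (Sum.inl m) = 0 := fun a => by rw [hM]; rfl
    simp only [h3, h4, mul_zero, Finset.sum_const_zero, add_zero] at h2
    rw [Matrix.mul_apply]
    refine Eq.trans ?_ (h2.trans ?_)
    · rfl
    · rw [Matrix.smul_apply, Matrix.smul_apply, Matrix.one_apply, Matrix.one_apply]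
      simp only [Sum.inl.injEq]
  have hAB : b • A + lam • B = 0 := by
    ext l m
    have h2 := congrFun (congrFun h1 (Sum.inl l)) (Sum.inr m)
    rw [Matrix.mul_apply, Fintype.sum_sum_type] at h2
    have h3 : ∀ a, M (Sum.inl a) (Sum.inr m) = if a = m then b else 0 := fun a => by
      rw [hM, Matrix.fromBlocks_apply₁₂, Matrix.smul_apply, Matrix.one_apply]
      split_ifs <;> simp
    have h4 : ∀ a, M (Sum.inr a) (Sum.inr m) = if a = m then lam else 0 := fun a => by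
      rw [hM, Matrix.fromBlocks_apply₂₂, Matrix.smul_apply, Matrix.one_apply]
      split_ifs <;> simp
    simp only [h3, h4, mul_ite, mul_zero, Finset.sum_ite_eq', Finset.mem_univ, if_true] at h2
    rw [Matrix.smul_apply, Matrix.one_apply, if_neg (by simp), smul_zero] at h2
    rw [Matrix.add_apply, Matrix.smul_apply, Matrix.smul_apply, Matrix.zero_apply, ← h2,
      smul_eq_mul, smul_eq_mul, mul_comm b, mul_comm lam]
    rfl
  have hAdet : A.det ≠ 0 := by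
    intro h
    have h2 := congrArg Matrix.det hAJ
    rw [Matrix.det_mul, h, zero_mul, Matrix.det_smul, Matrix.det_one, mul_one] at h2
    exact pow_ne_zero _ hdet h2.symm
  intro h
  have h2 : lam • B = -(b • A) := by
    rw [eq_neg_iff_add_eq_zero, add_comm]
    exact hAB
  have h3 := congrArg Matrix.det h2
  rw [Matrix.det_smul, h, mul_zero, Matrix.det_neg, Matrix.det_smul] at h3
  have h4 : (-1 : K) ^ Fintype.card (Fin r) * (b ^ Fintype.card (Fin r) * A.det) ≠ 0 :=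
    mul_ne_zero (pow_ne_zero _ (neg_ne_zero.mpr one_ne_zero))
      (mul_ne_zero (pow_ne_zero _ hb) hAdet)
  exact h4 h3.symm

end block

section main

variable {r : ℕ} (Φ : Fin r ⊕ Fin r → MvPowerSeries (Fin r ⊕ Fin r) (OC C))

/-- the norm on `OC C` is multiplicative -/
theorem OC.norm_mul' (a b : OC C) : ‖a * b‖ = ‖a‖ * ‖b‖ := norm_mul (a : C) (b : C)

theorem OC.norm_pow' (a : OC C) (k : ℕ) : ‖a ^ k‖ = ‖a‖ ^ k := norm_pow (a : C) k

theorem OC.norm_sum_le {ι : Type*} (s : Finset ι) (f : ι → OC C) {ρ : ℝ} (hρ : 0 ≤ ρ)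
    (h : ∀ i ∈ s, ‖f i‖ ≤ ρ) : ‖∑ i ∈ s, f i‖ ≤ ρ :=
  IsUltrametricDist.norm_sum_le_of_forall_le_of_nonneg hρ h

/-- the pointwise estimate -/
theorem point_estimate (h0 : ∀ i, constantCoeff (Φ i) = 0) (hκ : (linM Φ).det ≠ 0) (N M : ℕ)
    (hNM : N ≤ M) (hM : 2 ≤ M) (g : MvPowerSeries (Fin r) (OC C)) (u s Y : Fin r → OC C)
    (hu : ‖u‖ < ‖(linM Φ).det‖ ^ 2) (hs : ‖s‖ < ‖(linM Φ).det‖ ^ 2)
    (h1 : ∀ i, ‖evi (Sum.elim u s) (Φ (Sum.inl i))‖ ≤ ‖u‖ ^ M)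
    (h2 : ∀ i, evi (Sum.elim u s) (Φ (Sum.inr i)) = Y i) :
    ‖(evi u g : C) - MvPolynomial.eval (fun i => (Y i : C))
      (truncTotal N (subst (UU Φ) (MvPowerSeries.map (OC C).subtype g)))‖ ≤
      max ((‖(linM Φ).det‖ ^ (M + 2))⁻¹) ((‖(linM Φ).det‖ ^ (2 * N))⁻¹) * ‖Y‖ ^ N := by
  set κ := (linM Φ).det with hκdef
  have hκ0 : (κ : C) ≠ 0 := fun h => hκ (Subtype.ext h)
  have hκpos : 0 < ‖κ‖ := norm_pos_iff.mpr hκ
  have hκ1 : ‖κ‖ ≤ 1 := OC.norm_le_one κ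
  have hκ2 : ‖κ‖ ^ 2 ≤ ‖κ‖ := by
    rw [pow_two]
    exact mul_le_of_le_one_left hκpos.le hκ1
  -- the point
  set z : Fin r ⊕ Fin r → OC C := Sum.elim u s with hz
  have hzlt : ∀ i, ‖z i‖ < ‖κ‖ ^ 2 := by
    rintro (i | i)
    · exact (norm_le_pi_norm u i).trans_lt hu
    · exact (norm_le_pi_norm s i).trans_lt hs
  have hzle1 : ∀ i, ‖z i‖ < 1 := fun i => (hzlt i).trans_le (hκ2.trans hκ1)
  -- rescaled point
  have hz'ex : ∀ i, ∃ w : OC C, κ * w = z i ∧ ‖w‖ < 1 := by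
    intro i
    have h3 : ‖(z i : C) / (κ : C)‖ < 1 := by
      rw [norm_div, div_lt_one (by exact hκpos)]
      exact (hzlt i).trans_le hκ2
    refine ⟨⟨(z i : C) / (κ : C), h3.le⟩, Subtype.ext ?_, h3⟩
    change (κ : C) * ((z i : C) / (κ : C)) = z i
    field_simp
  choose z' hz' hz'1 using hz'ex
  have hzz : (fun i => κ * z' i) = z := funext hz'
  -- image
  set v : Fin r ⊕ Fin r → OC C := fun l => evi z (Φ l) with hv
  set w : Fin r ⊕ Fin r → OC C := fun i => evi z' (nrm Φ i) with hw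
  have hwv : ∀ i, κ ^ 2 * w i = ∑ l, (linM Φ).adjugate i l * v l := by
    intro i
    have h3 := nrm_ev Φ h0 hz'1 i
    rw [← hκdef, hzz] at h3
    exact h3
  have hzw : ∀ i, z i = κ * evi w (inv Φ i) := by
    intro i
    rw [← hz' i]
    congr 1
    exact (ev_inv Φ hz'1 i).symm
  -- norms
  set e : ℝ := ‖fun i : Fin r => v (Sum.inl i)‖ with he
  have he0 : 0 ≤ e := norm_nonneg _
  have hvY : ∀ i, v (Sum.inr i) = Y i := h2
  set m : ℝ := max e ‖Y‖ with hm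
  have hm0 : 0 ≤ m := he0.trans (le_max_left _ _)
  have hvm : ∀ l, ‖v l‖ ≤ m := by
    rintro (i | i)
    · exact (norm_le_pi_norm (fun i : Fin r => v (Sum.inl i)) i).trans (le_max_left _ _)
    · rw [hvY]
      exact (norm_le_pi_norm Y i).trans (le_max_right _ _)
  have hwm : ∀ i, ‖κ‖ ^ 2 * ‖w i‖ ≤ m := by
    intro i
    rw [← OC.norm_pow', ← OC.norm_mul', hwv]
    refine OC.norm_sum_le _ _ hm0 fun l _ => ?_
    rw [OC.norm_mul']
    exact (mul_le_of_le_one_left (norm_nonneg _) (OC.norm_le_one _)).trans (hvm l)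
  have hz'max : ∃ ρ < (1 : ℝ), 0 ≤ ρ ∧ ∀ i, ‖z' i‖ ≤ ρ :=
    ⟨‖z'‖, (pi_norm_lt_iff one_pos).mpr hz'1, norm_nonneg _, norm_le_pi_norm z'⟩
  obtain ⟨ρ', hρ'1, hρ'0, hρ'⟩ := hz'max
  have hwle : ∀ i, ‖w i‖ ≤ ρ' := fun i => norm_evi_le_one hρ'1 hρ' hρ'0 _ ((nrm_near Φ).1 i)
  have hw1 : ∀ i, ‖w i‖ < 1 := fun i => (hwle i).trans_lt hρ'1
  have hwnorm : ‖w‖ < 1 := (pi_norm_lt_iff one_pos).mpr hw1
  have hwm' : ‖κ‖ ^ 2 * ‖w‖ ≤ m := by
    have h3 : ‖w‖ ≤ m / ‖κ‖ ^ 2 := by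
      refine (pi_norm_le_iff_of_nonneg (by positivity)).mpr fun i => ?_
      rw [le_div_iff₀ (by positivity), mul_comm]
      exact hwm i
    rw [le_div_iff₀ (by positivity)] at h3
    linarith
  have hzm : ∀ i, ‖κ‖ * ‖z i‖ ≤ m := by
    intro i
    rw [hzw i, OC.norm_mul']
    have h3 : ‖evi w (inv Φ i)‖ ≤ ‖w‖ :=
      norm_evi_le_one hwnorm (norm_le_pi_norm w) (norm_nonneg _) _ ((inv_near Φ).1 i)
    calc ‖κ‖ * (‖κ‖ * ‖evi w (inv Φ i)‖) = ‖κ‖ ^ 2 * ‖evi w (inv Φ i)‖ := by ring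
      _ ≤ ‖κ‖ ^ 2 * ‖w‖ := by gcongr
      _ ≤ m := hwm'
  have hum : ‖κ‖ * ‖u‖ ≤ m := by
    have h3 : ‖u‖ ≤ m / ‖κ‖ := by
      refine (pi_norm_le_iff_of_nonneg (by positivity)).mpr fun i => ?_
      rw [le_div_iff₀ hκpos, mul_comm]
      exact hzm (Sum.inl i)
    rw [le_div_iff₀ hκpos] at h3
    linarith
  have heu : e ≤ ‖u‖ ^ M := (pi_norm_le_iff_of_nonneg (by positivity)).mpr h1
  have hult : ‖u‖ < ‖κ‖ := hu.trans_le hκ2
  have hu1 : ‖u‖ ≤ 1 := hult.le.trans hκ1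
  -- the error is dominated by `Y`
  have heY : e ≤ ‖Y‖ := by
    by_contra hcon
    push Not at hcon
    have hme : m = e := max_eq_left hcon.le
    have hepos : 0 < e := (norm_nonneg Y).trans_lt hcon
    rw [hme] at hum
    have h3 : ‖u‖ ^ M ≤ ‖u‖ ^ 2 := pow_le_pow_of_le_one (norm_nonneg _) hu1 hM
    have hupos : 0 < ‖u‖ := by
      by_contra h4
      have : ‖u‖ = 0 := le_antisymm (not_lt.mp h4) (norm_nonneg _)
      rw [this, zero_pow (by omega)] at heu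
      linarith
    have h4 : ‖κ‖ * ‖u‖ ≤ ‖u‖ ^ 2 := hum.trans (heu.trans h3)
    rw [pow_two] at h4
    have h5 : ‖κ‖ ≤ ‖u‖ := le_of_mul_le_mul_right h4 hupos
    linarith
  have hmY : m = ‖Y‖ := max_eq_right heY
  rw [hmY] at hum
  have huY : ‖u‖ ≤ ‖Y‖ / ‖κ‖ := by
    rw [le_div_iff₀ hκpos]; linarith
  have hY1 : ‖Y‖ < ‖κ‖ ^ 2 := by
    refine (pi_norm_lt_iff (by positivity)).mpr fun i => ?_
    rw [← h2 i]
    have hzn : ‖z‖ < ‖κ‖ ^ 2 := (pi_norm_lt_iff (by positivity)).mpr hzlt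
    refine (norm_evi_le_one (hzn.trans_le (hκ2.trans hκ1)) (norm_le_pi_norm z) (norm_nonneg _) _
      (h0 _)).trans_lt hzn
  have hYle1 : ‖Y‖ ≤ 1 := hY1.le.trans (hκ2.trans hκ1)
  have heM : e ≤ (‖κ‖ ^ M)⁻¹ * ‖Y‖ ^ N := by
    calc e ≤ ‖u‖ ^ M := heu
      _ ≤ (‖Y‖ / ‖κ‖) ^ M := pow_le_pow_left₀ (norm_nonneg _) huY M
      _ = (‖κ‖ ^ M)⁻¹ * ‖Y‖ ^ M := by rw [div_pow, div_eq_inv_mul]
      _ ≤ (‖κ‖ ^ M)⁻¹ * ‖Y‖ ^ N :=
        mul_le_mul_of_nonneg_left (pow_le_pow_of_le_one (norm_nonneg _) hYle1 hNM) (by positivity)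
  -- rescaled `Y`
  have hY'ex : ∀ i, ∃ y : OC C, κ ^ 2 * y = Y i ∧ ‖y‖ ≤ ‖Y‖ / ‖κ‖ ^ 2 := by
    intro i
    have h3 : ‖(Y i : C) / (κ : C) ^ 2‖ ≤ ‖Y‖ / ‖κ‖ ^ 2 := by
      rw [norm_div, norm_pow]
      exact div_le_div_of_nonneg_right (norm_le_pi_norm Y i) (by positivity)
    have h4 : ‖Y‖ / ‖κ‖ ^ 2 ≤ 1 := by
      rw [div_le_one (by positivity)]; exact hY1.le
    refine ⟨⟨(Y i : C) / (κ : C) ^ 2, h3.trans h4⟩, Subtype.ext ?_, h3⟩
    change (κ : C) ^ 2 * ((Y i : C) / (κ : C) ^ 2) = Y i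
    field_simp
  choose Y' hY' hY'le using hY'ex
  have hρY1 : ‖Y‖ / ‖κ‖ ^ 2 < 1 := by
    rw [div_lt_one (by positivity)]; exact hY1
  have hρY0 : 0 ≤ ‖Y‖ / ‖κ‖ ^ 2 := by positivity
  have hY'1 : ∀ i, ‖Y' i‖ < 1 := fun i => (hY'le i).trans_lt hρY1
  set w0 : Fin r ⊕ Fin r → OC C := fun i => evi Y' (wh Φ i) with hw0
  have hw0eq : ∀ i, w0 i = ∑ l : Fin r, (linM Φ).adjugate i (Sum.inr l) * Y' l := by
    intro i
    simp only [hw0]
    unfold evi wh
    rw [ev_sum _ _ (nilp hY'1)]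
    refine Finset.sum_congr rfl fun l _ => ?_
    rw [ev_mul _ _ (nilp hY'1), ev_C _ _ (nilp hY'1), ev_X _ _ (nilp hY'1)]
    rfl
  have hw01 : ∀ i, ‖w0 i‖ < 1 := fun i =>
    (norm_evi_le_one hρY1 hY'le hρY0 _ (wh_const Φ i)).trans_lt hρY1
  have hdiff : ∀ i, ‖w i - w0 i‖ ≤ e / ‖κ‖ ^ 2 := by
    intro i
    have h3 : κ ^ 2 * (w i - w0 i) = ∑ l : Fin r, (linM Φ).adjugate i (Sum.inl l) * v (Sum.inl l) := by
      rw [mul_sub, hwv, hw0eq, Fintype.sum_sum_type, Finset.mul_sum]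
      have h4 : ∑ l : Fin r, κ ^ 2 * ((linM Φ).adjugate i (Sum.inr l) * Y' l) =
          ∑ l : Fin r, (linM Φ).adjugate i (Sum.inr l) * v (Sum.inr l) := by
        refine Finset.sum_congr rfl fun l _ => ?_
        rw [hvY, ← hY' l]
        ring
      rw [h4]
      ring
    have h5 : ‖κ‖ ^ 2 * ‖w i - w0 i‖ ≤ e := by
      rw [← OC.norm_pow', ← OC.norm_mul', h3]
      refine OC.norm_sum_le _ _ he0 fun l _ => ?_
      rw [OC.norm_mul']
      exact (mul_le_of_le_one_left (norm_nonneg _) (OC.norm_le_one _)).trans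
        (norm_le_pi_norm (fun i : Fin r => v (Sum.inl i)) l)
    rw [le_div_iff₀ (by positivity), mul_comm]
    exact h5
  -- evaluate
  set Sg := subst (sinv Φ) g with hSg
  have hug : evi u g = evi w Sg := by
    rw [hSg]
    unfold evi
    rw [ev_subst _ _ (nilp hw1) _ (sinv_const Φ)]
    congr 1
    funext l
    rw [sinv, ev_mul _ _ (nilp hw1), ev_C _ _ (nilp hw1)]
    exact hzw (Sum.inl l)
  have hw0g : evi w0 Sg = evi Y' (subst (Uh Φ) g) := by
    rw [subst_Uh, hw0]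
    unfold evi
    rw [ev_subst _ _ (nilp hY'1) _ (wh_const Φ)]
  have hlip : ‖evi w Sg - evi w0 Sg‖ ≤ e / ‖κ‖ ^ 2 :=
    OC.norm_ev_sub_le (RingHom.id (OC C)) w w0 hw1 hw01 (by positivity) hdiff Sg
  have htr := evi_sub_trunc hρY1 hρY0 hY'le (subst (Uh Φ) g) N
  have heval : MvPolynomial.eval (fun i => (Y i : C))
      (truncTotal N (subst (UU Φ) (MvPowerSeries.map (OC C).subtype g))) =
      ((MvPolynomial.eval Y' (truncTotal N (subst (Uh Φ) g)) : OC C) : C) := by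
    rw [subst_UU]
    refine eval_truncTotal_rescale (OC C).subtype _ N _ _ Y' fun i => ?_
    rw [← hY' i]
    change ((κ : C) ^ 2)⁻¹ * ((κ : C) ^ 2 * (Y' i : C)) = Y' i
    field_simp
  rw [heval]
  have hfin : (evi u g : C) - ((MvPolynomial.eval Y' (truncTotal N (subst (Uh Φ) g)) : OC C) : C) =
      (((evi w Sg - evi w0 Sg) + (evi Y' (subst (Uh Φ) g) -
        MvPolynomial.eval Y' (truncTotal N (subst (Uh Φ) g))) : OC C) : C) := by
    rw [hug, hw0g]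
    push_cast
    ring
  rw [hfin]
  change ‖((evi w Sg - evi w0 Sg) + (evi Y' (subst (Uh Φ) g) -
        MvPolynomial.eval Y' (truncTotal N (subst (Uh Φ) g))) : OC C)‖ ≤ _
  refine (IsUltrametricDist.norm_add_le_max _ _).trans (max_le ?_ ?_)
  · refine hlip.trans ?_
    calc e / ‖κ‖ ^ 2 ≤ ((‖κ‖ ^ M)⁻¹ * ‖Y‖ ^ N) / ‖κ‖ ^ 2 :=
          div_le_div_of_nonneg_right heM (by positivity)
      _ = (‖κ‖ ^ (M + 2))⁻¹ * ‖Y‖ ^ N := by
          rw [pow_add]
          field_simp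
      _ ≤ _ := mul_le_mul_of_nonneg_right (le_max_left _ _) (by positivity)
  · refine htr.trans ?_
    calc (‖Y‖ / ‖κ‖ ^ 2) ^ N = (‖κ‖ ^ (2 * N))⁻¹ * ‖Y‖ ^ N := by
          rw [div_pow, ← pow_mul, div_eq_inv_mul]
      _ ≤ _ := mul_le_mul_of_nonneg_right (le_max_right _ _) (by positivity)

/-- Effective implicit function theorem. -/
theorem implicit (h0 : ∀ i, constantCoeff (Φ i) = 0) (J : Matrix (Fin r) (Fin r) (OC C))
    (b lam : OC C) (hJ : J.det ≠ 0) (hb : b ≠ 0) (hlam : lam ≠ 0)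
    (hM : linM Φ = Matrix.fromBlocks J (b • (1 : Matrix (Fin r) (Fin r) (OC C))) 0
      (lam • (1 : Matrix (Fin r) (Fin r) (OC C)))) (N M : ℕ) (hNM : N ≤ M) (hM2 : 2 ≤ M) :
    ∃ 𝒰 : Fin r → MvPowerSeries (Fin r) C, (∀ i, constantCoeff (𝒰 i) = 0) ∧
      IsUnit (Matrix.det (Matrix.of fun l i : Fin r => coeff (Finsupp.single i 1) (𝒰 l))) ∧
      ∃ (ε0 C0 : ℝ), 0 < ε0 ∧ 0 ≤ C0 ∧ ∀ (g : MvPowerSeries (Fin r) (OC C)) (u s Y : Fin r → OC C),
        ‖u‖ < ε0 → ‖s‖ < ε0 →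
        (∀ i, ‖evi (Sum.elim u s) (Φ (Sum.inl i))‖ ≤ ‖u‖ ^ M) →
        (∀ i, evi (Sum.elim u s) (Φ (Sum.inr i)) = Y i) →
        ‖(evi u g : C) - MvPolynomial.eval (fun i => (Y i : C))
          (truncTotal N (subst 𝒰 (MvPowerSeries.map (OC C).subtype g)))‖ ≤ C0 * ‖Y‖ ^ N := by
  obtain ⟨hκ, hadj⟩ := adj_block J b lam hJ hb hlam (linM Φ) hM
  have hκpos : 0 < ‖(linM Φ).det‖ := norm_pos_iff.mpr hκ
  refine ⟨UU Φ, UU_const Φ, ?_, ‖(linM Φ).det‖ ^ 2, _, by positivity, ?_, fun g u s Y hu hs h1 h2 =>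
    point_estimate Φ h0 hκ N M hNM hM2 g u s Y hu hs h1 h2⟩
  · have h1 : (Matrix.of fun l i : Fin r => coeff (Finsupp.single i 1) (UU Φ l)) =
        ((linM Φ).det : C)⁻¹ • ((OC C).subtype.mapMatrix
          (Matrix.of fun l i : Fin r => (linM Φ).adjugate (Sum.inl l) (Sum.inr i))) := by
      ext l i
      rw [Matrix.of_apply, UU_lin Φ l i hκ]
      rfl
    rw [h1, Matrix.det_smul, ← RingHom.map_det, isUnit_iff_ne_zero]
    refine mul_ne_zero (pow_ne_zero _ (inv_ne_zero fun h => hκ (Subtype.ext h))) fun h => ?_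
    exact hadj (Subtype.ext h)
  · exact le_max_of_le_left (by positivity)

end main

end Crest.Agent.LT95
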