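import Crest.Agent.LT95.Impl

/-! # Evaluation with values in power series rings over the unit ball (row 227, STAR) -/

set_option autoImplicit false
set_option linter.unusedSectionVars false

namespace Crest.Agent.LT95

open MvPowerSeries Finsupp Crest.Agent.LT Crest.LubinTate
open scoped MvPowerSeries.WithPiTopology

section general

variable {σ τ : Type*} [Finite σ] [Finite τ] {R : Type*} [CommRing R]
variable {S : Type*} [CommRing S] [UniformSpace S] [IsUniformAddGroup S] [IsTopologicalRing S]
  [IsLinearTopology S S] [T2Space S] [CompleteSpace S]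

/-- `evHom` is continuous for any ring topology on the coefficient ring making `φ` continuous -/
theorem continuous_evHom_of [UniformSpace R] [IsTopologicalSemiring R] [IsUniformAddGroup R]
    (φ : R →+* S) (hφ : Continuous φ) (a : σ → S) (ha : ∀ i, IsTopologicallyNilpotent (a i)) :
    Continuous (evHom φ a ha : MvPowerSeries σ R →+* S) := by
  have h1 : (⇑(evHom φ a ha) : MvPowerSeries σ R → S) = MvPowerSeries.eval₂ φ a := by
    funext f
    rw [evHom_apply]
    exact (hasSum_ev φ a ha f).unique (MvPowerSeries.hasSum_eval₂ hφ (hasEval_of_forall ha) f)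
  rw [h1]
  exact MvPowerSeries.continuous_eval₂ hφ (hasEval_of_forall ha)

variable {S' : Type*} [CommRing S'] [UniformSpace S'] [IsUniformAddGroup S']
  [IsTopologicalRing S'] [IsLinearTopology S' S'] [T2Space S'] [CompleteSpace S']

theorem map_ev1 (g : S →+* S') (hg : Continuous g) (φ : R →+* S) (z : S)
    (hz : IsTopologicallyNilpotent z) (f : PowerSeries R) :
    g (ev1 φ z f) = ev1 (g.comp φ) (g z) f :=
  map_ev g hg φ (fun _ : Unit => z) (fun _ => hz) f

theorem map_op (g : S →+* S') (hg : Continuous g) (F : FormalGroup R) (φ : R →+* S) {a b : S}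
    (ha : IsTopologicallyNilpotent a) (hb : IsTopologicallyNilpotent b) :
    g (op F φ a b) = op F (g.comp φ) (g a) (g b) := by
  unfold op
  rw [map_ev g hg φ _ (E7.tn2 ha hb)]
  congr 1
  funext i
  fin_cases i <;> rfl

theorem op_map {R' : Type*} [CommRing R'] (F : FormalGroup R') (ψ : R' →+* R) (φ : R →+* S)
    {a b : S} (ha : IsTopologicallyNilpotent a) (hb : IsTopologicallyNilpotent b) :
    op (F.map ψ) φ a b = op F (φ.comp ψ) a b := by
  unfold op
  rw [FormalGroup.map_toPowerSeries, ev_map φ ψ _ (E7.tn2 ha hb)]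

end general

variable {C : Type*} [NormedField C] [IsUltrametricDist C] [CompleteSpace C]

section OCval

variable {σ τ : Type*} [Finite σ] [Finite τ]

theorem tn_mv {f : MvPowerSeries τ (OC C)} (hf : ‖constantCoeff f‖ < 1) :
    IsTopologicallyNilpotent f :=
  MvPowerSeries.LinearTopology.isTopologicallyNilpotent_of_constantCoeff
    ((OC.isTopologicallyNilpotent_iff _).mpr hf)

theorem tn_mv0 {f : MvPowerSeries τ (OC C)} (hf : constantCoeff f = 0) :
    IsTopologicallyNilpotent f :=
  tn_mv (by rw [hf, norm_zero]; exact one_pos)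

theorem tn1 {z : OC C} (hz : ‖z‖ < 1) : IsTopologicallyNilpotent z :=
  (OC.isTopologicallyNilpotent_iff z).mpr hz

/-- evaluation through `C` at series without constant term is substitution -/
theorem ev_C_eq_subst (a : σ → MvPowerSeries τ (OC C)) (ha : ∀ i, constantCoeff (a i) = 0)
    (G : MvPowerSeries σ (OC C)) :
    ev (MvPowerSeries.C : OC C →+* MvPowerSeries τ (OC C)) a G = subst a G := by
  have h1 := hasSum_ev (MvPowerSeries.C : OC C →+* MvPowerSeries τ (OC C)) a
    (fun i => tn_mv0 (ha i)) G
  refine h1.unique ?_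
  rw [MvPowerSeries.WithPiTopology.hasSum_iff_hasSum_coeff]
  intro d
  have hs : HasSubst a := hasSubst_of_constantCoeff_zero ha
  have hfin := coeff_subst_finite hs G d
  rw [coeff_subst hs]
  have h2 : (fun e : σ →₀ ℕ => coeff d (MvPowerSeries.C (coeff e G) * e.prod fun i k => a i ^ k)) =
      fun e : σ →₀ ℕ => coeff e G • coeff d (e.prod fun i k => a i ^ k) := by
    funext e
    rw [coeff_C_mul, smul_eq_mul]
  rw [h2]
  rw [finsum_eq_sum _ hfin]
  refine hasSum_sum_of_ne_finset_zero fun b hb => ?_
  by_contra h
  exact hb (hfin.mem_toFinset.mpr h)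

end OCval

end Crest.Agent.LT95
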